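import Crest.Agent.CRN.Core

set_option autoImplicit false

namespace Crest.Agent.CRN

open Finset Filter Real Topology

variable {ι : Type*} [Fintype ι] [DecidableEq ι]

omit [DecidableEq ι] in
lemma valid_of_inv {N₀ : ℕ} {E' θ : ℝ} {v x : ι → ℝ} (hE : 1 ≤ E') (hθ : 0 ≤ θ)
    (hinv : Inv N₀ (((Fintype.card ι : ℝ) * N₀ + 1) * E') v 0)
    (hx : ∀ i, exp (θ * (v i - E')) ≤ x i ∧ x i ≤ exp (θ * (v i + E')))
    (g : ι → ℤ) (hg : ∀ i, |g i| ≤ N₀) (hpos : 0 < ∑ i, (g i : ℝ) * v i) :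
    θ ≤ ∑ i, (g i : ℝ) * log (x i) := by
  have h1 : ((Fintype.card ι : ℝ) * N₀ + 1) * E' ≤ ∑ i, (g i : ℝ) * v i := by
    rcases hinv g 0 hg (by simp) with h | h
    · simp at h; linarith
    · simpa [abs_of_pos hpos] using h
  have h2 : ∀ i, θ * ((g i : ℝ) * v i) - N₀ * (θ * E') ≤ (g i : ℝ) * log (x i) := by
    intro i
    have hx0 : 0 < x i := (exp_pos _).trans_le (hx i).1
    have a1 : θ * (v i - E') ≤ log (x i) := (le_log_iff_exp_le hx0).2 (hx i).1
    have a2 : log (x i) ≤ θ * (v i + E') := (log_le_iff_le_exp hx0).2 (hx i).2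
    have a3 : |log (x i) - θ * v i| ≤ θ * E' := abs_le.2 ⟨by linarith, by linarith⟩
    have a4 : |(g i : ℝ)| ≤ N₀ := by exact_mod_cast hg i
    have a5 : |(g i : ℝ) * (log (x i) - θ * v i)| ≤ N₀ * (θ * E') := by
      rw [abs_mul]; exact mul_le_mul a4 a3 (abs_nonneg _) (Nat.cast_nonneg _)
    have a6 := (abs_le.1 a5).1
    linarith
  have h3 := Finset.sum_le_sum fun i (_ : i ∈ Finset.univ) => h2 i
  rw [Finset.sum_sub_distrib, ← Finset.mul_sum, Finset.sum_const, Finset.card_univ,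
    nsmul_eq_mul] at h3
  have h4 := mul_le_mul_of_nonneg_left h1 hθ
  nlinarith

omit [DecidableEq ι] in
lemma inv_zero (N : ℕ) {D τ : ℝ} (h : D ≤ |τ|) : Inv N D (0 : ι → ℝ) τ := by
  intro g m _ _
  by_cases hm : m = 0
  · left; simp [hm]
  · right
    have h1 : (1 : ℝ) ≤ |(m : ℝ)| := by exact_mod_cast Int.one_le_abs hm
    simp only [Pi.zero_apply, mul_zero, Finset.sum_const_zero, zero_add, abs_mul]
    nlinarith [abs_nonneg τ]

theorem barriers (N₀ : ℕ) (c : ι → ℝ) (hc : ∀ i, 0 < c i) :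
    ∃ (W : Set ((ι → ℝ) × (ℝ → ℝ))) (a : ℝ), W.Finite ∧ (∀ p ∈ W, ContDiff ℝ 1 p.2) ∧
      (∀ᶠ θ in atTop, ∀ x : ι → ℝ, (∀ p ∈ W, val θ x p ≤ 0) →
        (∀ i, 0 < x i ∧ x i ≤ exp (θ * a)) ∧ ∀ p ∈ W, val θ x p = 0 →
          ∑ i, p.1 i * x i ≠ ∑ i, p.1 i * c i ∧
          ∀ g : ι → ℤ, (∀ i, |g i| ≤ N₀) → 0 < ∑ i, (g i : ℝ) * p.1 i →
            θ ≤ ∑ i, (g i : ℝ) * log (x i)) ∧
      ∀ x : ι → ℝ, (∀ i, 0 < x i) → ∀ᶠ θ in atTop, ∀ p ∈ W, val θ x p ≤ 0 := by
  classical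
  set n := Fintype.card ι with hn
  have hΛ₀ : (1 : ℝ) ≤ (n : ℝ) * N₀ + 1 := by
    have : (0 : ℝ) ≤ (n : ℝ) * N₀ := by positivity
    linarith
  obtain ⟨N, Λ, μ, L, -, hΛ, hμ, hL, H⟩ := core (ι := ι) N₀ ((n : ℝ) * N₀ + 1) hΛ₀ n
  have hΛ1 : 1 ≤ Λ := hΛ₀.trans hΛ
  set E₀ : ℝ := 3 * L + 3 with hE₀
  have hE₀3 : 3 ≤ E₀ := by linarith
  set A : ℝ := Λ + μ + 1 with hA
  have hA1 : 1 ≤ A := by linarith
  set EI : Finset ι → ℝ := fun I => A ^ (n - I.card) * E₀ with hEI
  have hEI0 : ∀ I, E₀ ≤ EI I := fun I => by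
    have : 1 ≤ A ^ (n - I.card) := one_le_pow₀ hA1
    simp only [hEI]; nlinarith
  set γ : Finset ι → ℝ := fun I => (Λ + μ) * EI I with hγ
  set Γ : ℝ := A ^ (n + 1) * E₀ with hΓ
  have hγ1 : ∀ I, γ I + 1 ≤ A * EI I := fun I => by
    have := hEI0 I
    simp only [hγ, hA]; nlinarith
  have hγE : ∀ I, EI I < γ I := fun I => by
    have := hEI0 I
    simp only [hγ]; nlinarith
  have hγΓ : ∀ I, γ I + 1 ≤ Γ := fun I => by
    refine (hγ1 I).trans ?_
    simp only [hEI, hΓ]
    rw [← mul_assoc, ← pow_succ']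
    exact mul_le_mul_of_nonneg_right (pow_le_pow_right₀ hA1 (by omega)) (by linarith)
  have hins : ∀ (I : Finset ι) (j : ι), j ∉ I → A * EI (insert j I) = EI I := by
    intro I j hj
    simp only [hEI]
    have h1 := Finset.card_le_univ (insert j I)
    rw [card_insert_of_notMem hj] at h1 ⊢
    rw [← mul_assoc, ← pow_succ']
    congr 2
    omega
  have hΓ0 : 0 ≤ Γ := by have := hγΓ ∅; have := hγE ∅; have := hEI0 ∅; linarith
  obtain ⟨Wt, hWt⟩ := H 3 le_rfl Finset.univ le_rfl 0 (Λ * 3 + E₀ + μ * 3) (fun _ _ => rfl)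
    (inv_zero N (le_trans (by linarith) (le_abs_self _))) Γ
  have hI : ∀ I : Finset ι, ∃ W, Good N₀ ((n : ℝ) * N₀ + 1) μ L (EI I) Γ I 0 (-(Λ * EI I)) W :=
    fun I => H (EI I) (hE₀3.trans (hEI0 I)) I (Finset.card_le_univ I) 0 _ (fun _ _ => rfl)
      (inv_zero N (by rw [abs_neg]; exact le_abs_self _)) Γ
  choose WI hWI using hI
  have hneg : ∀ I, ∀ p ∈ WI I, ∀ i ∈ I, p.1 i ≤ -1 := by
    intro I p hp i hi
    have h1 := (hWI I).lt p hp i hi
    have h2 := hEI0 I
    nlinarith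
  have hzero : ∀ I, ∀ p ∈ WI I, ∀ i, i ∉ I → p.1 i = 0 := fun I p hp i hi =>
    (hWI I).off p hp i hi
  set Ft : (ι → ℝ) × (ℝ → ℝ) → (ι → ℝ) × (ℝ → ℝ) :=
    fun p => (p.1, fun θ => p.2 θ + exp (θ * (3 * L + 2))) with hFt
  set FI : Finset ι → (ι → ℝ) × (ℝ → ℝ) → (ι → ℝ) × (ℝ → ℝ) :=
    fun I p => (p.1, fun θ => p.2 θ - exp (-(θ * γ I))) with hFI
  have hvt : ∀ θ x p, val θ x (Ft p) = val θ x p - exp (θ * (3 * L + 2)) := fun θ x p => by
    simp only [val, hFt]; ring
  have hvI : ∀ I θ x p, val θ x (FI I p) = val θ x p + exp (-(θ * γ I)) := fun I θ x p => by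
    simp only [val, hFI]; ring
  -- comparison with a fixed positive point
  have hfix : ∀ y : ι → ℝ, (∀ i, 0 < y i) → ∀ᶠ θ in atTop,
      (∀ p ∈ Wt, ∑ i, p.1 i * y i < exp (θ * (3 * L + 2))) ∧
      ∀ I : Finset ι, I.Nonempty → ∀ p ∈ WI I, ∑ i, p.1 i * y i + exp (-(θ * γ I)) < 0 := by
    intro y hy
    refine Eventually.and ?_ ?_
    · rw [eventually_all_finite hWt.fin]
      intro p _
      exact (tendsto_exp_atTop.comp (tendsto_id.atTop_mul_const
        (by linarith : (0 : ℝ) < 3 * L + 2))).eventually_gt_atTop _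
    · rw [eventually_all]
      intro I
      by_cases hI : I.Nonempty
      swap
      · exact Eventually.of_forall fun θ h => absurd h hI
      have : ∀ᶠ θ in atTop, ∀ p ∈ WI I, ∑ i, p.1 i * y i + exp (-(θ * γ I)) < 0 := by
        rw [eventually_all_finite (hWI I).fin]
        intro p hp
        have h1 : ∑ i, p.1 i * y i < 0 := by
          obtain ⟨i, hi⟩ := hI
          have : ∑ i, p.1 i * y i < ∑ i : ι, (0 : ℝ) := by
            refine Finset.sum_lt_sum (fun j _ => ?_) ⟨i, mem_univ _, ?_⟩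
            · by_cases hj : j ∈ I
              · have := hneg I p hp j hj
                have := hy j
                nlinarith
              · simp [hzero I p hp j hj]
            · have := hneg I p hp i hi
              have := hy i
              nlinarith
          simpa using this
        have hγ0 : 0 < γ I := by have := hγE I; have := hEI0 I; linarith
        have h2 : Tendsto (fun θ => exp (-(θ * γ I))) atTop (𝓝 0) :=
          tendsto_exp_neg_atTop_nhds_zero.comp (tendsto_id.atTop_mul_const hγ0)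
        filter_upwards [h2.eventually_lt_const (neg_pos.2 h1)] with θ hθ
        linarith
      exact this.mono fun θ h _ => h
  refine ⟨Ft '' Wt ∪ ⋃ I ∈ {I : Finset ι | I.Nonempty}, FI I '' WI I, E₀, ?_, ?_, ?_, ?_⟩
  · exact (hWt.fin.image _).union ((Set.toFinite _).biUnion fun I _ => (hWI I).fin.image _)
  · rintro p' (⟨p, hp, rfl⟩ | hp')
    · have := hWt.smooth p hp
      simp only [hFt]
      fun_prop
    · obtain ⟨I, -, p, hp, rfl⟩ := Set.mem_iUnion₂.1 hp'
      have := (hWI I).smooth p hp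
      simp only [hFI]
      fun_prop
  swap
  · intro x hx
    filter_upwards [hfix x hx] with θ hθ
    rintro p' (⟨p, hp, rfl⟩ | hp')
    · have h1 := hθ.1 p hp
      have h2 := hWt.nonneg p hp θ
      rw [hvt]; unfold val; linarith
    · obtain ⟨I, hI, p, hp, rfl⟩ := Set.mem_iUnion₂.1 hp'
      have h1 := hθ.2 I hI p hp
      have h2 := (hWI I).nonneg p hp θ
      rw [hvI]; unfold val; linarith
  have ev1 : ∀ᶠ θ in atTop, ∀ I : Finset ι, ∀ p ∈ WI I, (∑ j, |p.1 j|) + n < 1 * exp θ := by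
    rw [eventually_all]
    intro I
    rw [eventually_all_finite (hWI I).fin]
    exact fun p _ => ev_mul_exp one_pos _
  have ev2 : ∀ᶠ θ in atTop, ∀ p ∈ Wt, ∀ q ∈ Wt, (∑ j, |p.1 j - q.1 j|) + n < 1 * exp θ := by
    rw [eventually_all_finite hWt.fin]
    intro p _
    rw [eventually_all_finite hWt.fin]
    exact fun q _ => ev_mul_exp one_pos _
  have ev3 := eventually_all.2 fun I => (hWI I).main
  filter_upwards [ev1, ev2, ev3, hWt.main, hfix c hc, ev_mul_exp one_pos 2,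
    eventually_gt_atTop 0] with θ h1 h2 h3 h4 h5 h6 hθ x hx
  have hxt : ∀ p ∈ Wt, val θ x p ≤ exp (θ * (3 * L + 2)) := fun p hp => by
    have := hx (Ft p) (Or.inl ⟨p, hp, rfl⟩)
    rw [hvt] at this; linarith
  have hxI : ∀ I : Finset ι, I.Nonempty → ∀ p ∈ WI I, val θ x p ≤ -exp (-(θ * γ I)) :=
    fun I hI p hp => by
      have := hx (FI I p) (Or.inr (Set.mem_biUnion (x := I) hI ⟨p, hp, rfl⟩))
      rw [hvI] at this; linarith
  -- some coordinate of `I` is not too small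
  have hlow : ∀ I : Finset ι, I.Nonempty → ∃ i ∈ I, exp (-(θ * (γ I + 1))) ≤ x i := by
    intro I hI
    by_contra hcon
    push Not at hcon
    obtain ⟨p, hp, hch⟩ := (hWI I).cheap
    have a1 := hxI I hI p hp
    have a2 := hch θ hθ.le
    have a3 := h1 I p hp
    have hb := exp_pos (-(θ * (γ I + 1)))
    have a4 : -((∑ j, |p.1 j|) * exp (-(θ * (γ I + 1)))) ≤ ∑ j, p.1 j * x j := by
      rw [Finset.sum_mul, ← Finset.sum_neg_distrib]
      refine Finset.sum_le_sum fun j _ => ?_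
      by_cases hj : j ∈ I
      · have b1 := hneg I p hp j hj
        have b2 := hcon j hj
        rw [abs_of_neg (by linarith)]
        nlinarith
      · simp [hzero I p hp j hj]
    have a5 : exp (-(θ * Γ)) ≤ exp (-(θ * (γ I + 1))) :=
      exp_le_exp.2 (neg_le_neg (mul_le_mul_of_nonneg_left (hγΓ I) hθ.le))
    have a6 : (I.card : ℝ) ≤ n := by exact_mod_cast Finset.card_le_univ I
    have a7 : (I.card : ℝ) * exp (-(θ * Γ)) ≤ n * exp (-(θ * (γ I + 1))) :=
      mul_le_mul a6 a5 (exp_pos _).le (Nat.cast_nonneg _)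
    have a8 : exp (-(θ * γ I)) = exp θ * exp (-(θ * (γ I + 1))) := by
      rw [← exp_add]; congr 1; ring
    have a9 := mul_lt_mul_of_pos_right a3 hb
    unfold val at a1
    nlinarith
  have hlow1 : ∀ i, exp (-(θ * Γ)) ≤ x i := by
    intro i
    obtain ⟨j, hj, h⟩ := hlow {i} (singleton_nonempty i)
    rw [Finset.mem_singleton.1 hj] at h
    exact le_trans (exp_le_exp.2 (neg_le_neg (mul_le_mul_of_nonneg_left (hγΓ _) hθ.le))) h
  have hpos : ∀ i, 0 < x i := fun i => (exp_pos _).trans_le (hlow1 i)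
  have hup : ∀ i, x i ≤ exp (θ * E₀) := by
    intro i
    obtain ⟨p₀, hp₀, hch⟩ := hWt.cheap
    set b := exp (θ * (3 * L + 1)) with hb
    have hb1 : 1 ≤ b := one_le_exp (mul_nonneg hθ.le (by linarith))
    obtain ⟨p, hp, hmax⟩ := Set.exists_max_image Wt (val θ (fun _ => b)) hWt.fin ⟨p₀, hp₀⟩
    have hΓ1 : exp (-(θ * Γ)) ≤ 1 := exp_le_one_iff.2 (neg_nonpos.2 (mul_nonneg hθ.le hΓ0))
    obtain ⟨E', -, hE', -, hbd⟩ := h4 (fun _ => b) (fun j _ => ⟨hΓ1.trans hb1,
      exp_le_exp.2 (mul_le_mul_of_nonneg_left (by linarith) hθ.le)⟩) p hp hmax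
    have hp1 : ∀ j, 1 ≤ p.1 j := fun j => by
      have := le_of_mul_le_mul_left (exp_le_exp.1 (hbd j (mem_univ j)).2) hθ
      linarith
    have a1 := demote (V := Finset.univ) (x := fun _ => b) (b := b) (p := p) (q := p₀) (θ := θ)
      (fun j _ => ⟨by linarith, le_rfl⟩) (fun j hj => absurd (mem_univ j) hj) (hmax p₀ hp₀)
    have a2 := hch θ hθ.le
    rw [Finset.card_univ] at a2
    have a3 : (n : ℝ) * exp (-(θ * Γ)) ≤ n * b :=
      mul_le_mul_of_nonneg_left (hΓ1.trans hb1) (Nat.cast_nonneg _)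
    have a4 := mul_lt_mul_of_pos_right (h2 p hp p₀ hp₀) (by linarith : 0 < b)
    have a5 : exp (θ * (3 * L + 2)) = exp θ * b := by
      rw [hb, ← exp_add]; congr 1; ring
    have a6 : exp (θ * E₀) = exp θ * exp (θ * (3 * L + 2)) := by
      rw [← exp_add]; congr 1; rw [hE₀]; ring
    have a7 : x i ≤ ∑ j, p.1 j * x j := by
      refine le_trans ?_ (Finset.single_le_sum (f := fun j => p.1 j * x j)
        (fun j _ => mul_nonneg (by linarith [hp1 j]) (hpos j).le) (mem_univ i))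
      have := hp1 i
      have := hpos i
      nlinarith
    have a8 := hxt p hp
    unfold val at a8
    have a9 : p.2 θ ≤ exp (θ * (3 * L + 2)) := by rw [a5]; nlinarith
    have a10 := exp_pos (θ * (3 * L + 2))
    rw [a6]
    nlinarith
  refine ⟨fun i => ⟨hpos i, hup i⟩, ?_⟩
  rintro p' (⟨p, hp, rfl⟩ | hp') hact
  · rw [hvt] at hact
    obtain ⟨E', hE1, -, hinv, hbd⟩ := h4 x (fun j _ => ⟨hlow1 j, (hup j).trans
      (exp_le_exp.2 (mul_le_mul_of_nonneg_left (by linarith) hθ.le))⟩) p hp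
      (fun q hq => by have := hxt q hq; linarith)
    refine ⟨?_, valid_of_inv (by linarith) hθ.le hinv fun i => hbd i (mem_univ i)⟩
    have a1 := h5.1 p hp
    have a2 := hWt.nonneg p hp θ
    unfold val at hact
    simp only [hFt]
    linarith
  · obtain ⟨I, hI, p, hp, rfl⟩ := Set.mem_iUnion₂.1 hp'
    rw [hvI] at hact
    have hnn := (hWI I).nonneg p hp θ
    have hsm : ∀ i ∈ I, x i ≤ exp (-(θ * γ I)) := by
      intro i hi
      have a1 : -p.1 i * x i ≤ ∑ j, -p.1 j * x j := by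
        refine Finset.single_le_sum (f := fun j => -p.1 j * x j) (fun j _ => ?_) (mem_univ i)
        by_cases hj : j ∈ I
        · exact mul_nonneg (by linarith [hneg I p hp j hj]) (hpos j).le
        · simp [hzero I p hp j hj]
      simp only [neg_mul, Finset.sum_neg_distrib] at a1
      have a2 := hneg I p hp i hi
      have a3 := hpos i
      unfold val at hact
      nlinarith
    obtain ⟨E', hE1, -, hinv, hbd⟩ := h3 I x (fun j hj => ⟨hlow1 j, (hsm j hj).trans
      (le_of_eq (by congr 1; simp only [hγ]; ring))⟩) p hp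
      (fun q hq => by have := hxI I hI q hq; linarith)
    have hE2 := hEI0 I
    refine ⟨?_, valid_of_inv (by linarith) hθ.le hinv fun i => ?_⟩
    · have a1 := h5.2 I hI p hp
      unfold val at hact
      simp only [hFI]
      linarith
    · by_cases hi : i ∈ I
      · exact hbd i hi
      · have a0 : (FI I p).1 i = 0 := hzero I p hp i hi
        rw [a0]
        refine ⟨?_, (hup i).trans (exp_le_exp.2 (mul_le_mul_of_nonneg_left (by linarith) hθ.le))⟩
        obtain ⟨j, hj, h⟩ := hlow (insert i I) (insert_nonempty _ _)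
        have a1 : exp (-(θ * EI I)) ≤ x j := by
          refine le_trans (exp_le_exp.2 (neg_le_neg (mul_le_mul_of_nonneg_left ?_ hθ.le))) h
          rw [← hins I i hi]; exact hγ1 _
        rcases Finset.mem_insert.1 hj with rfl | hj
        · refine le_trans (exp_le_exp.2 ?_) a1
          nlinarith
        · have a2 := exp_le_exp.1 (a1.trans (hsm j hj))
          have a3 := mul_lt_mul_of_pos_left (hγE I) hθ
          linarith

end Crest.Agent.CRN
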