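import Mathlib

set_option autoImplicit false

namespace Crest.Agent.CRN

open Finset

/-- One-dimensional grid: levels below `τ`, either critical (radius `ρ`) or `ρ`-far from all
critical values (radius `E`), each either near the top or with a close higher level. -/
theorem grid_exists (C : Finset ℝ) (τ ρ E Γ : ℝ) (hE : 3 ≤ E) (hρ : E ≤ ρ) (hτ : τ ∈ C)
    (hsep : ∀ c ∈ C, ∀ c' ∈ C, c = c' ∨ 3 * ρ ≤ |c - c'|) :
    ∃ (G : Finset ℝ) (e : ℝ → ℝ),
      (∀ s ∈ G, s < τ ∧ ((s ∈ C ∧ e s = ρ) ∨ ((∀ c ∈ C, ρ ≤ |s - c|) ∧ e s = E)) ∧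
        (τ - ρ ≤ s + e s ∨ ∃ s' ∈ G, s < s' ∧ s' - e s' + 1 ≤ s + e s - 1)) ∧
      ∃ s ∈ G, s ≤ -Γ := by
  classical
  set lo : ℤ := ⌊min (-Γ) τ - 2 * ρ⌋ with hlo
  set hi : ℤ := ⌈τ⌉ with hhi
  set G1 : Finset ℝ := C.filter (fun c => c < τ ∧ (lo : ℝ) - ρ ≤ c) with hG1
  set G2 : Finset ℝ := ((Finset.Icc lo hi).image (fun z : ℤ => (z : ℝ))).filter
    (fun s => s < τ ∧ ∀ c ∈ C, ρ ≤ |s - c|) with hG2
  set e : ℝ → ℝ := fun s => if s ∈ C then ρ else E with he
  have hρ0 : 0 < ρ := by linarith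
  have heC : ∀ s ∈ C, e s = ρ := fun s hs => by simp [he, hs]
  have heN : ∀ s, (∀ c ∈ C, ρ ≤ |s - c|) → e s = E := by
    intro s hs
    have : s ∉ C := fun h => by
      have := hs s h
      simp at this
      linarith
    simp [he, this]
  have mem2 : ∀ z : ℤ, lo ≤ z → (z : ℝ) < τ → (∀ c ∈ C, ρ ≤ |(z : ℝ) - c|) → (z : ℝ) ∈ G1 ∪ G2 := by
    intro z h1 h2 h3
    refine mem_union_right _ ?_
    rw [hG2, mem_filter]
    refine ⟨mem_image.2 ⟨z, mem_Icc.2 ⟨h1, ?_⟩, rfl⟩, h2, h3⟩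
    have : (z : ℝ) ≤ (hi : ℝ) := h2.le.trans (Int.le_ceil τ)
    exact_mod_cast this
  have mem1 : ∀ c ∈ C, c < τ → (lo : ℝ) - ρ ≤ c → c ∈ G1 ∪ G2 := by
    intro c h1 h2 h3
    exact mem_union_left _ (by rw [hG1, mem_filter]; exact ⟨h1, h2, h3⟩)
  refine ⟨G1 ∪ G2, e, ?_, ?_⟩
  · intro s hs
    rcases mem_union.1 hs with hs | hs
    · rw [hG1, mem_filter] at hs
      obtain ⟨hsC, hsτ, hslo⟩ := hs
      refine ⟨hsτ, Or.inl ⟨hsC, heC s hsC⟩, Or.inr ?_⟩
      have hz1 : s + ρ ≤ (⌈s + ρ⌉ : ℝ) := Int.le_ceil _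
      have hz2 : (⌈s + ρ⌉ : ℝ) < s + ρ + 1 := Int.ceil_lt_add_one _
      have hfar : ∀ c ∈ C, ρ ≤ |(⌈s + ρ⌉ : ℝ) - c| := by
        intro c hc
        rcases hsep s hsC c hc with h | h
        · subst h
          rw [abs_of_nonneg (by linarith)]; linarith
        · rcases le_total s c with h' | h'
          · rw [abs_of_nonpos (by linarith)] at h
            rw [abs_of_nonpos (by linarith)]; linarith
          · rw [abs_of_nonneg (by linarith)]; linarith
      have hlt : (⌈s + ρ⌉ : ℝ) < τ := by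
        rcases hsep s hsC τ hτ with h | h
        · linarith
        · rw [abs_of_nonpos (by linarith)] at h; linarith
      refine ⟨(⌈s + ρ⌉ : ℝ), mem2 _ ?_ hlt hfar, by linarith, ?_⟩
      · have : (lo : ℝ) ≤ (⌈s + ρ⌉ : ℝ) := by linarith
        exact_mod_cast this
      · rw [heN _ hfar, heC s hsC]; linarith
    · rw [hG2, mem_filter] at hs
      obtain ⟨hsz, hsτ, hfar⟩ := hs
      obtain ⟨z, hz, rfl⟩ := mem_image.1 hsz
      have hzlo : lo ≤ z := (mem_Icc.1 hz).1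
      have hzlo' : (lo : ℝ) ≤ z := by exact_mod_cast hzlo
      refine ⟨hsτ, Or.inr ⟨hfar, heN _ hfar⟩, ?_⟩
      by_cases h1 : ∀ c ∈ C, ρ ≤ |((z + 1 : ℤ) : ℝ) - c|
      · right
        have hlt : ((z + 1 : ℤ) : ℝ) < τ := by
          have := hfar τ hτ
          rw [abs_of_nonpos (by linarith)] at this
          push_cast; linarith
        refine ⟨((z + 1 : ℤ) : ℝ), mem2 _ (by omega) hlt h1, by push_cast; linarith, ?_⟩
        rw [heN _ h1, heN _ hfar]; push_cast; linarith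
      · push Not at h1
        obtain ⟨c, hc, hc1⟩ := h1
        push_cast at hc1
        have h2 := hfar c hc
        have hcz : (z : ℝ) < c := by
          by_contra hcon
          push Not at hcon
          rw [abs_of_nonneg (by linarith)] at h2 hc1
          linarith
        have h3 : c < z + 1 + ρ := by
          have := (abs_lt.1 hc1).1
          linarith
        by_cases hcτ : c < τ
        · right
          refine ⟨c, mem1 c hc hcτ (by linarith), hcz, ?_⟩
          rw [heC c hc, heN _ hfar]; linarith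
        · left
          rw [heN _ hfar]; push Not at hcτ; linarith
  · have h1 : (lo : ℝ) ≤ min (-Γ) τ - 2 * ρ := Int.floor_le _
    have h2 : min (-Γ) τ ≤ -Γ := min_le_left _ _
    have h3 : min (-Γ) τ ≤ τ := min_le_right _ _
    by_cases h : ∀ c ∈ C, ρ ≤ |(lo : ℝ) - c|
    · exact ⟨lo, mem2 lo le_rfl (by linarith) h, by linarith⟩
    · push Not at h
      obtain ⟨c, hc, hc1⟩ := h
      have := abs_lt.1 hc1
      exact ⟨c, mem1 c hc (by linarith) (by linarith), by linarith⟩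

end Crest.Agent.CRN
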