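import Crest.Agent.CRN.Step
import Crest.Agent.CRN.Grid

set_option autoImplicit false

namespace Crest.Agent.CRN

open Finset Filter Real

variable {ι : Type*} [Fintype ι] [DecidableEq ι]

omit [DecidableEq ι] in
lemma Inv.mono {N N' : ℕ} {D D' : ℝ} {w : ι → ℝ} {τ : ℝ} (h : Inv N D w τ) (hN : N' ≤ N)
    (hD : D' ≤ D) : Inv N' D' w τ := by
  intro g m hg hm
  have hN' : (N' : ℤ) ≤ N := by exact_mod_cast hN
  rcases h g m (fun i => (hg i).trans hN') (hm.trans hN') with h | h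
  · exact Or.inl h
  · exact Or.inr (hD.trans h)

omit [DecidableEq ι] in
lemma Inv.zero {N : ℕ} {D : ℝ} {w : ι → ℝ} {τ : ℝ} (h : Inv N D w τ) : Inv N D w 0 := by
  intro g m hg _
  simpa using h g 0 hg (by simp)

/-- The set of critical values. -/
lemma crit (Q : ℕ) (hQ : 1 ≤ Q) (D : ℝ) (w : ι → ℝ) (τ : ℝ)
    (h : Inv (2 * Q ^ 2) D w τ) :
    ∃ C : Finset ℝ, τ ∈ C ∧ (∀ c ∈ C, ∀ c' ∈ C, c = c' ∨ D / Q ^ 2 ≤ |c - c'|) ∧
      ∀ (g : ι → ℤ) (q : ℤ), (∀ i, |g i| ≤ Q) → |q| ≤ Q → q ≠ 0 →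
        -(∑ i, (g i : ℝ) * w i) / q ∈ C := by
  classical
  set J : Finset ℤ := Finset.Icc (-(Q : ℤ)) Q with hJ
  have hJm : ∀ z : ℤ, z ∈ J ↔ |z| ≤ Q := fun z => by rw [hJ, Finset.mem_Icc, abs_le]
  set T : Finset ((ι → ℤ) × ℤ × ℤ) := Fintype.piFinset (fun _ => J) ×ˢ (J ×ˢ J.erase 0) with hT
  have hTm : ∀ t : (ι → ℤ) × ℤ × ℤ, t ∈ T ↔
      (∀ i, |t.1 i| ≤ Q) ∧ |t.2.1| ≤ Q ∧ t.2.2 ≠ 0 ∧ |t.2.2| ≤ Q := by
    intro t
    simp only [hT, Finset.mem_product, Fintype.mem_piFinset, Finset.mem_erase, hJm]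
  set φ : (ι → ℤ) × ℤ × ℤ → ℝ := fun t => (∑ i, (t.1 i : ℝ) * w i + t.2.1 * τ) / t.2.2 with hφ
  have hQz : (1 : ℤ) ≤ Q := by exact_mod_cast hQ
  refine ⟨T.image φ, ?_, ?_, ?_⟩
  · refine mem_image.2 ⟨(0, 1, 1), (hTm _).2 ⟨fun i => by simp, by simpa using hQz, by simp,
      by simpa using hQz⟩, by simp [hφ]⟩
  · intro c hc c' hc'
    obtain ⟨⟨g, m, q⟩, ht, rfl⟩ := mem_image.1 hc
    obtain ⟨⟨g', m', q'⟩, ht', rfl⟩ := mem_image.1 hc'
    obtain ⟨hg, hm, hq0, hq⟩ := (hTm _).1 ht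
    obtain ⟨hg', hm', hq0', hq'⟩ := (hTm _).1 ht'
    simp only at hg hm hq0 hq hg' hm' hq0' hq'
    have key : ∀ a b a' b' : ℤ, |a| ≤ Q → |b| ≤ Q → |a'| ≤ Q → |b'| ≤ Q →
        |b' * a - b * a'| ≤ ((2 * Q ^ 2 : ℕ) : ℤ) := by
      intro a b a' b' ha hb ha' hb'
      have h1 : |b' * a| ≤ Q * Q := by
        rw [abs_mul]; exact mul_le_mul hb' ha (abs_nonneg _) (by omega)
      have h2 : |b * a'| ≤ Q * Q := by
        rw [abs_mul]; exact mul_le_mul hb ha' (abs_nonneg _) (by omega)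
      have h3 := abs_sub (b' * a) (b * a')
      push_cast
      nlinarith
    have hqR : (q : ℝ) ≠ 0 := by exact_mod_cast hq0
    have hqR' : (q' : ℝ) ≠ 0 := by exact_mod_cast hq0'
    have hdiff : φ (g, m, q) - φ (g', m', q') =
        (∑ i, ((q' * g i - q * g' i : ℤ) : ℝ) * w i + ((q' * m - q * m' : ℤ) : ℝ) * τ) /
          (q * q') := by
      have : ∑ i, ((q' * g i - q * g' i : ℤ) : ℝ) * w i =
          q' * ∑ i, (g i : ℝ) * w i - q * ∑ i, (g' i : ℝ) * w i := by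
        rw [Finset.mul_sum, Finset.mul_sum, ← Finset.sum_sub_distrib]
        refine Finset.sum_congr rfl fun i _ => by push_cast; ring
      rw [this]
      simp only [hφ]
      push_cast
      field_simp
      ring
    rcases h (fun i => q' * g i - q * g' i) (q' * m - q * m')
      (fun i => key _ _ _ _ (hg i) hq (hg' i) hq') (key _ _ _ _ hm hq hm' hq') with h0 | h0
    · left
      rw [← sub_eq_zero, hdiff, h0, zero_div]
    · right
      rw [hdiff, abs_div]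
      have h1 : |(q : ℝ) * q'| ≤ (Q : ℝ) ^ 2 := by
        rw [abs_mul, sq]
        have a1 : |(q : ℝ)| ≤ Q := by exact_mod_cast hq
        have a2 : |(q' : ℝ)| ≤ Q := by exact_mod_cast hq'
        exact mul_le_mul a1 a2 (abs_nonneg _) (Nat.cast_nonneg _)
      have h2 : 0 < |(q : ℝ) * q'| := abs_pos.2 (mul_ne_zero hqR hqR')
      exact div_le_div₀ (abs_nonneg _) h0 h2 h1
  · intro g q hg hq hq0
    refine mem_image.2 ⟨(-g, 0, q), (hTm _).2 ⟨fun i => by simpa using hg i, by simp, hq0, hq⟩, ?_⟩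
    simp [hφ]

lemma child_inv (N₁ Q : ℕ) (hQ : (Fintype.card ι + 1) * N₁ ≤ Q) (D' : ℝ) (w : ι → ℝ) (τ s : ℝ)
    (U B : Finset ι) (hBU : B ⊆ U) (hw : ∀ i ∈ U, w i = 0) (h : Inv N₁ D' w τ) (C : Finset ℝ)
    (hC : ∀ (g : ι → ℤ) (q : ℤ), (∀ i, |g i| ≤ Q) → |q| ≤ Q → q ≠ 0 →
        -(∑ i, (g i : ℝ) * w i) / q ∈ C)
    (hs : ∀ c ∈ C, s = c ∨ D' ≤ |s - c|) :
    Inv N₁ D' (B.piecewise (fun _ => s) w) s := by
  intro g m hg hm
  have hsum : ∑ i, (g i : ℝ) * B.piecewise (fun _ => s) w i + m * s =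
      ∑ i, (g i : ℝ) * w i + ((∑ i ∈ B, g i + m : ℤ) : ℝ) * s := by
    have : ∀ i, (g i : ℝ) * B.piecewise (fun _ => s) w i =
        (g i : ℝ) * w i + (if i ∈ B then (g i : ℝ) * s else 0) := by
      intro i
      by_cases hi : i ∈ B
      · simp [hi, hw i (hBU hi)]
      · simp [hi]
    simp only [this, Finset.sum_add_distrib, Finset.sum_ite_mem, univ_inter]
    push_cast
    rw [add_mul, Finset.sum_mul, add_assoc]
  rw [hsum]
  set q : ℤ := ∑ i ∈ B, g i + m with hq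
  have hN0 : (0 : ℤ) ≤ N₁ := Int.natCast_nonneg _
  have hQz : ((Fintype.card ι : ℤ) + 1) * N₁ ≤ Q := by exact_mod_cast hQ
  have hn0 : (0 : ℤ) ≤ Fintype.card ι := Int.natCast_nonneg _
  have hqQ : |q| ≤ Q := by
    have h1 : |∑ i ∈ B, g i| ≤ (Fintype.card ι : ℤ) * N₁ := by
      refine (Finset.abs_sum_le_sum_abs _ _).trans ?_
      have h2 := Finset.sum_le_card_nsmul B (fun i => |g i|) (N₁ : ℤ) (fun i _ => hg i)
      have h3 : (B.card : ℤ) ≤ Fintype.card ι := by exact_mod_cast Finset.card_le_univ B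
      rw [nsmul_eq_mul] at h2
      nlinarith
    have h2 := abs_add_le (∑ i ∈ B, g i) m
    nlinarith
  by_cases hq0 : q = 0
  · simpa [hq0] using h g 0 hg (by simp)
  · have hqR : (q : ℝ) ≠ 0 := by exact_mod_cast hq0
    have hmem := hC g q (fun i => (hg i).trans (by nlinarith)) hqQ hq0
    have he : ∑ i, (g i : ℝ) * w i + q * s = q * (s - -(∑ i, (g i : ℝ) * w i) / q) := by
      field_simp
      ring
    rw [he]
    rcases hs _ hmem with h0 | h0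
    · left; rw [← h0]; simp
    · right
      rw [abs_mul]
      have h1 : (1 : ℝ) ≤ |(q : ℝ)| := by exact_mod_cast Int.one_le_abs hq0
      nlinarith [abs_nonneg (s - -(∑ i, (g i : ℝ) * w i) / q)]

omit [DecidableEq ι] in
lemma good_empty (N₀ : ℕ) (Λ₀ μ L E Γ : ℝ) (hL : 1 ≤ L) (hE : 0 ≤ E) (w : ι → ℝ) (τ : ℝ)
    (h : Inv N₀ (Λ₀ * E) w τ) : Good N₀ Λ₀ μ L E Γ ∅ w τ {(w, fun _ => 0)} := by
  refine ⟨Set.finite_singleton _, ?_, ?_, ?_, ?_, ?_, ?_⟩
  · rintro p rfl i _; rfl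
  · intro p _ i hi; simp at hi
  · rintro p rfl; exact contDiff_const
  · rintro p rfl θ; exact le_rfl
  · exact ⟨_, rfl, fun θ _ => by simp⟩
  · refine Eventually.of_forall fun θ x _ p hp _ => ⟨E, le_rfl, by nlinarith, ?_, by simp⟩
    obtain rfl := hp
    exact h.zero

theorem core (N₀ : ℕ) (Λ₀ : ℝ) (hΛ₀ : 1 ≤ Λ₀) (r : ℕ) :
    ∃ (N : ℕ) (Λ μ L : ℝ), N₀ ≤ N ∧ Λ₀ ≤ Λ ∧ 1 ≤ μ ∧ 1 ≤ L ∧
      ∀ E : ℝ, 3 ≤ E → ∀ U : Finset ι, U.card ≤ r → ∀ (w : ι → ℝ) (τ : ℝ), (∀ i ∈ U, w i = 0) →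
        Inv N (Λ * E) w τ → ∀ Γ : ℝ, ∃ W, Good N₀ Λ₀ μ L E Γ U w τ W := by
  induction r with
  | zero =>
    refine ⟨N₀, Λ₀, 1, 1, le_rfl, le_rfl, le_rfl, le_rfl, fun E hE U hU w τ _ h Γ => ?_⟩
    obtain rfl : U = ∅ := Finset.card_eq_zero.1 (by omega)
    exact ⟨_, good_empty N₀ Λ₀ 1 1 E Γ le_rfl (by linarith) w τ h⟩
  | succ r ih =>
    obtain ⟨N₁, Λ₁, μ₁, L₁, hN₁, hΛ₁, hμ₁, hL₁, H⟩ := ih
    set n := Fintype.card ι with hn
    set Q : ℕ := (n + 1) * N₁ + 1 with hQ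
    set P : ℝ := (μ₁ + 2) ^ n with hP
    have hP1 : 1 ≤ P := one_le_pow₀ (by linarith)
    have hΛ1 : 1 ≤ Λ₁ := hΛ₀.trans hΛ₁
    set A : ℝ := Λ₁ * P with hA
    have hA1 : 1 ≤ A := by nlinarith
    have hΛA : Λ₁ ≤ A := by nlinarith
    have hQ1 : 1 ≤ Q := by omega
    have hQR : (1 : ℝ) ≤ (Q : ℝ) ^ 2 := one_le_pow₀ (by exact_mod_cast hQ1)
    have hNQ : N₁ ≤ 2 * Q ^ 2 := by
      have : N₁ ≤ Q := by rw [hQ]; nlinarith
      nlinarith
    have hAA : A ≤ A * A := by nlinarith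
    have hΛ : A * A ≤ 3 * (Q : ℝ) ^ 2 * (A * A) := by nlinarith
    have hL : 1 ≤ L₁ * (P * A) := by
      have : 1 ≤ P * A := by nlinarith
      nlinarith
    refine ⟨2 * Q ^ 2, 3 * (Q : ℝ) ^ 2 * (A * A), A, L₁ * (P * A), hN₁.trans hNQ,
      by linarith, hA1, hL, fun E hE U hU w τ hw h Γ => ?_⟩
    have hE0 : 0 ≤ E := by linarith
    rcases U.eq_empty_or_nonempty with rfl | hUne
    · exact ⟨_, good_empty N₀ Λ₀ _ _ E Γ hL hE0 w τ (h.mono (hN₁.trans hNQ)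
        (mul_le_mul_of_nonneg_right (by linarith) hE0))⟩
    obtain ⟨C, hτC, hsep, hC⟩ := crit Q hQ1 _ w τ h
    have hdiv : 3 * (Q : ℝ) ^ 2 * (A * A) * E / (Q : ℝ) ^ 2 = 3 * (A * (A * E)) := by
      field_simp
    rw [hdiv] at hsep
    have hAE : E ≤ A * E := by nlinarith
    have hAAE : A * E ≤ A * (A * E) := by nlinarith
    obtain ⟨G, e, hG, hbot⟩ := grid_exists C τ (A * E) E Γ hE hAE hτC (fun c hc c' hc' =>
      (hsep c hc c' hc').imp id (fun h' => le_trans (by linarith) h'))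
    have he : ∀ s ∈ G, E ≤ e s ∧ e s ≤ A * E := by
      intro s hs
      rcases (hG s hs).2.1 with h' | h' <;> rw [h'.2]
      · exact ⟨hAE, le_rfl⟩
      · exact ⟨le_rfl, hAE⟩
    refine step N₀ Λ₀ μ₁ L₁ A (L₁ * (P * A)) E Γ U w τ hUne G e hμ₁ hL₁ hE
      (fun s hs => ⟨(hG s hs).1, (he s hs).1, ?_, (hG s hs).2.2⟩) hbot
      (fun s hs B hBU hB => ?_)
    · calc L₁ * (P * e s) ≤ L₁ * (P * (A * E)) :=
            mul_le_mul_of_nonneg_left (mul_le_mul_of_nonneg_left (he s hs).2 (by linarith))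
              (by linarith)
        _ = L₁ * (P * A) * E := by ring
    · have hpow1 : 1 ≤ (μ₁ + 2) ^ (B.card - 1) := one_le_pow₀ (by linarith)
      have hpowP : (μ₁ + 2) ^ (B.card - 1) ≤ P :=
        pow_le_pow_right₀ (by linarith) (by have := Finset.card_le_univ B; omega)
      have hes := (he s hs).1
      have hD' : Λ₁ * ((μ₁ + 2) ^ (B.card - 1) * e s) ≤ A * e s := by
        rw [hA, mul_assoc]
        exact mul_le_mul_of_nonneg_left (mul_le_mul_of_nonneg_right hpowP (by linarith))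
          (by linarith)
      have hD'' : A * e s ≤ A * (A * E) := mul_le_mul_of_nonneg_left (he s hs).2 (by linarith)
      refine H _ (by nlinarith) (U \ B) ?_ _ s ?_ ?_ Γ
      · have h1 := Finset.card_sdiff_add_card_eq_card hBU
        have h2 := hB.card_pos
        omega
      · intro i hi
        rw [Finset.mem_sdiff] at hi
        rw [Finset.piecewise_eq_of_notMem _ _ _ hi.2, hw i hi.1]
      · refine child_inv N₁ Q (Nat.le_succ _) _ w τ s U B hBU hw (h.mono hNQ ?_) C hC ?_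
        · have : A * (A * E) ≤ 3 * (Q : ℝ) ^ 2 * (A * A) * E := by
            rw [← mul_assoc]; exact mul_le_mul_of_nonneg_right hΛ hE0
          linarith
        · intro c hc
          rcases (hG s hs).2.1 with h' | h'
          · refine (hsep s h'.1 c hc).imp id (fun h'' => le_trans ?_ h'')
            have : 0 ≤ A * (A * E) := by positivity
            linarith
          · right
            refine le_trans ?_ (h'.1 c hc)
            rw [h'.2] at hD' ⊢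
            exact hD'

end Crest.Agent.CRN
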