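import Crest.Agent.CRN.Step
import Crest.Prelude.Def_MassAction

set_option autoImplicit false

namespace Crest.Agent.CRN

open Finset Filter Real Set Topology Metric Crest.AnalysisR.MassAction
open scoped NNReal

variable {d : ℕ}

lemma fs_cont {v : (Fin d → ℝ) → (Fin d → ℝ)} {x : ℝ → Fin d → ℝ} (hx : IsForwardSolution v x) :
    ContinuousOn x (Ici 0) := fun t ht => (hx t ht).continuousWithinAt

lemma fs_right {v : (Fin d → ℝ) → (Fin d → ℝ)} {x : ℝ → Fin d → ℝ} (hx : IsForwardSolution v x)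
    {t : ℝ} (ht : 0 ≤ t) : HasDerivWithinAt x (v (x t)) (Ici t) t :=
  (hx t ht).mono (Ici_subset_Ici.2 ht)

lemma stay_in (S : Submodule ℝ (Fin d → ℝ)) {v : (Fin d → ℝ) → (Fin d → ℝ)} (hv : ∀ y, v y ∈ S)
    {x : ℝ → Fin d → ℝ} (hx : IsForwardSolution v x) {t : ℝ} (ht : 0 ≤ t) : x t - x 0 ∈ S := by
  obtain ⟨pr, hpr⟩ : ∃ pr : (Fin d → ℝ) →ₗ[ℝ] (Fin d → ℝ), LinearMap.ker pr = S := by
    obtain ⟨S', hS'⟩ := S.exists_isCompl
    refine ⟨S'.subtype ∘ₗ S'.projectionOnto S hS'.symm, ?_⟩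
    rw [LinearMap.ker_comp_of_ker_eq_bot _ (Submodule.ker_subtype S'),
      Submodule.ker_projectionOnto]
  set P := LinearMap.toContinuousLinearMap pr with hP
  have h1 : ∀ s ∈ Icc 0 t, (P ∘ x) s = (P ∘ x) 0 := by
    refine constant_of_has_deriv_right_zero ?_ ?_
    · exact P.continuous.comp_continuousOn ((fs_cont hx).mono Icc_subset_Ici_self)
    · intro s hs
      have := P.hasFDerivAt.comp_hasDerivWithinAt s (fs_right hx hs.1)
      have h0 : P (v (x s)) = 0 := by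
        have : v (x s) ∈ LinearMap.ker pr := hpr ▸ hv _
        exact this
      rwa [h0] at this
  have h2 := h1 t ⟨ht, le_rfl⟩
  rw [← hpr, LinearMap.mem_ker, map_sub, sub_eq_zero]
  exact h2

lemma moving (W : Set ((Fin d → ℝ) × (ℝ → ℝ))) (hW : W.Finite)
    (hsm : ∀ p ∈ W, ContDiff ℝ 1 p.2) {v : (Fin d → ℝ) → (Fin d → ℝ)} {x : ℝ → Fin d → ℝ}
    (hx : IsForwardSolution v x) {t₀ t₁ θ η : ℝ} (h0 : 0 ≤ t₀)
    (hact : ∀ t ∈ Ico t₀ t₁, (∀ p ∈ W, val (θ - η * (t - t₀)) (x t) p ≤ 0) → ∀ p ∈ W,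
      val (θ - η * (t - t₀)) (x t) p = 0 →
        ∑ i, p.1 i * v (x t) i + η * deriv p.2 (θ - η * (t - t₀)) < 0)
    (hinit : ∀ p ∈ W, val θ (x t₀) p ≤ 0) :
    ∀ t ∈ Icc t₀ t₁, ∀ p ∈ W, val (θ - η * (t - t₀)) (x t) p ≤ 0 := by
  set g : ((Fin d → ℝ) × (ℝ → ℝ)) → ℝ → ℝ := fun p t => val (θ - η * (t - t₀)) (x t) p with hg
  have hder : ∀ p ∈ W, ∀ t, 0 ≤ t → HasDerivWithinAt (g p)
      (∑ i, p.1 i * v (x t) i + η * deriv p.2 (θ - η * (t - t₀))) (Ici 0) t := by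
    intro p hp t ht
    have h1 : HasDerivWithinAt (fun t => ∑ i, p.1 i * x t i) (∑ i, p.1 i * v (x t) i)
        (Ici 0) t :=
      HasDerivWithinAt.fun_sum fun i _ => (hasDerivWithinAt_pi.1 (hx t ht) i).const_mul _
    have h2 : HasDerivAt (fun t => θ - η * (t - t₀)) (-η) t := by
      simpa using (((hasDerivAt_id t).sub_const t₀).const_mul η).const_sub θ
    have h3 : HasDerivAt p.2 (deriv p.2 (θ - η * (t - t₀))) (θ - η * (t - t₀)) :=
      (((hsm p hp).differentiable one_ne_zero) _).hasDerivAt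
    have h4 := (h3.comp t h2).hasDerivWithinAt (s := Ici 0)
    have h5 := h1.fun_sub h4
    have h6 : ∑ i, p.1 i * v (x t) i + η * deriv p.2 (θ - η * (t - t₀)) =
        ∑ i, p.1 i * v (x t) i - deriv p.2 (θ - η * (t - t₀)) * (-η) := by ring
    rw [h6]
    exact h5
  have hcl : IsClosed ({t | ∀ p ∈ W, g p t ≤ 0} ∩ Icc t₀ t₁) := by
    have : {t | ∀ p ∈ W, g p t ≤ 0} ∩ Icc t₀ t₁ =
        Icc t₀ t₁ ∩ ⋂ p ∈ W, (Icc t₀ t₁ ∩ g p ⁻¹' Iic 0) := by
      ext t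
      simp only [mem_inter_iff, mem_ofPred_eq, mem_iInter, Set.mem_preimage, Set.mem_Iic]
      exact ⟨fun h => ⟨h.2, fun p hp => ⟨h.2, h.1 p hp⟩⟩, fun h => ⟨fun p hp => (h.2 p hp).2, h.1⟩⟩
    rw [this]
    refine isClosed_Icc.inter (isClosed_biInter fun p hp => ?_)
    refine ContinuousOn.preimage_isClosed_of_isClosed ?_ isClosed_Icc isClosed_Iic
    exact fun t ht => ((hder p hp t (h0.trans ht.1)).continuousWithinAt).mono
      (fun s hs => h0.trans hs.1)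
  refine fun t ht => hcl.Icc_subset_of_forall_mem_nhdsWithin ?_ ?_ ht
  · intro p hp
    simpa [hg] using hinit p hp
  · rintro s ⟨hs1, hs2⟩
    have hs0 : 0 ≤ s := h0.trans hs2.1
    change ∀ᶠ t in 𝓝[>] s, ∀ p ∈ W, g p t ≤ 0
    rw [eventually_all_finite hW]
    intro p hp
    have hd : HasDerivWithinAt (g p) _ (Ioi s) s :=
      (hder p hp s hs0).mono (fun u hu => hs0.trans (le_of_lt hu))
    rcases (hs1 p hp).lt_or_eq with h | h
    · exact (hd.continuousWithinAt.eventually_lt_const h).mono fun u hu => hu.le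
    · have hneg := hact s hs2 hs1 p hp h
      have := (hasDerivWithinAt_iff_tendsto_slope' (by simp)).1 hd
      filter_upwards [this.eventually_lt_const hneg, self_mem_nhdsWithin] with u hu hus
      rw [slope_def_field, h, sub_zero] at hu
      have : 0 < u - s := sub_pos.2 hus
      exact ((div_neg_iff.1 hu).elim (fun h' => absurd h'.2 (not_lt.2 this.le)) fun h' => h'.1).le

lemma global_exists {v : (Fin d → ℝ) → (Fin d → ℝ)} {K L : ℝ≥0} (hv : LipschitzWith K v)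
    (hb : ∀ y, ‖v y‖ ≤ L) (x₀ : Fin d → ℝ) : ∃ x, IsForwardSolution v x ∧ x 0 = x₀ := by
  have h1 : ∀ n : ℕ, ∃ α : ℝ → Fin d → ℝ, α 0 = x₀ ∧
      ∀ t ∈ Icc (0 : ℝ) n, HasDerivWithinAt α (v (α t)) (Icc (0 : ℝ) n) t := by
    intro n
    have hpl : IsPicardLindelof (fun _ => v) (tmin := 0) (tmax := n)
        ⟨0, le_rfl, Nat.cast_nonneg n⟩ x₀ (L * n) 0 L K :=
      IsPicardLindelof.of_time_independent (fun y _ => hb y) hv.lipschitzOnWith (by simp)
    exact hpl.exists_eq_forall_mem_Icc_hasDerivWithinAt₀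
  choose α hα0 hα using h1
  have hright : ∀ n : ℕ, ∀ t ∈ Ico (0 : ℝ) n, HasDerivWithinAt (α n) (v (α n t)) (Ici t) t := by
    intro n t ht
    refine (hα n t (Ico_subset_Icc_self ht)).mono_of_mem_nhdsWithin ?_
    exact mem_of_superset (Icc_mem_nhdsGE ht.2) (Icc_subset_Icc_left ht.1)
  have heq : ∀ m n : ℕ, m ≤ n → EqOn (α m) (α n) (Icc (0 : ℝ) m) := by
    intro m n hmn
    have hmn' : (m : ℝ) ≤ n := by exact_mod_cast hmn
    refine ODE_solution_unique (v := fun _ => v) (fun _ => hv)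
      (fun t ht => (hα m t ht).continuousWithinAt) (hright m)
      (fun t ht => ((hα n t (Icc_subset_Icc_right hmn' ht)).continuousWithinAt).mono
        (Icc_subset_Icc_right hmn'))
      (fun t ht => hright n t (Ico_subset_Ico_right hmn' ht)) (by rw [hα0, hα0])
  refine ⟨fun t => α ⌈t⌉₊ t, fun t ht => ?_, hα0 _⟩
  set N := ⌈t⌉₊ + 1 with hN
  have htN : t < N := by rw [hN]; push_cast; linarith [Nat.le_ceil t]
  have hc : ∀ s ∈ Icc (0 : ℝ) N, α ⌈s⌉₊ s = α N s := fun s hs =>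
    heq _ _ (Nat.ceil_le.2 hs.2) ⟨hs.1, Nat.le_ceil s⟩
  have htI : t ∈ Icc (0 : ℝ) N := ⟨ht, htN.le⟩
  have h2 := (hα N t htI).congr_of_mem (f₁ := fun t => α ⌈t⌉₊ t) hc htI
  simp only
  rw [hc t htI]
  refine h2.mono_of_mem_nhdsWithin ?_
  exact mem_of_superset (inter_mem_nhdsWithin _ (Iio_mem_nhds htN))
    fun s hs => ⟨hs.1, le_of_lt hs.2⟩

/-- the polytope -/
def KK (S : Submodule ℝ (Fin d → ℝ)) (c : Fin d → ℝ) (W : Set ((Fin d → ℝ) × (ℝ → ℝ))) (θ : ℝ) :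
    Set (Fin d → ℝ) := {x | x - c ∈ S ∧ ∀ p ∈ W, val θ x p ≤ 0}

lemma KK_convex (S : Submodule ℝ (Fin d → ℝ)) (c : Fin d → ℝ) (W : Set ((Fin d → ℝ) × (ℝ → ℝ)))
    (θ : ℝ) : Convex ℝ (KK S c W θ) := by
  intro x hx y hy a b ha hb hab
  refine ⟨?_, fun p hp => ?_⟩
  · have : a • x + b • y - c = a • (x - c) + b • (y - c) := by
      rw [smul_sub, smul_sub]
      have : c = a • c + b • c := by rw [← add_smul, hab, one_smul]
      conv_lhs => rw [this]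
      abel
    rw [this]
    exact S.add_mem (S.smul_mem _ hx.1) (S.smul_mem _ hy.1)
  · have h1 := hx.2 p hp
    have h2 := hy.2 p hp
    have : val θ (a • x + b • y) p = a * val θ x p + b * val θ y p := by
      simp only [val, Pi.add_apply, Pi.smul_apply, smul_eq_mul]
      have h3 : ∑ i, p.1 i * (a * x i + b * y i) =
          a * ∑ i, p.1 i * x i + b * ∑ i, p.1 i * y i := by
        rw [Finset.mul_sum, Finset.mul_sum, ← Finset.sum_add_distrib]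
        exact Finset.sum_congr rfl fun i _ => by ring
      rw [h3]
      have : p.2 θ = (a + b) * p.2 θ := by rw [hab, one_mul]
      linear_combination (-1 : ℝ) * this
    rw [this]
    nlinarith

lemma val_cont {p : (Fin d → ℝ) × (ℝ → ℝ)} (hp : ContDiff ℝ 1 p.2) :
    Continuous fun z : (Fin d → ℝ) × ℝ => val z.2 z.1 p := by
  have := hp.continuous
  unfold val
  fun_prop

lemma KK_closed (S : Submodule ℝ (Fin d → ℝ)) (c : Fin d → ℝ) (W : Set ((Fin d → ℝ) × (ℝ → ℝ)))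
    (hsm : ∀ p ∈ W, ContDiff ℝ 1 p.2) :
    IsClosed {z : (Fin d → ℝ) × ℝ | z.1 ∈ KK S c W z.2} := by
  have : {z : (Fin d → ℝ) × ℝ | z.1 ∈ KK S c W z.2} =
      (fun z => z.1 - c) ⁻¹' (S : Set (Fin d → ℝ)) ∩ ⋂ p ∈ W, {z | val z.2 z.1 p ≤ 0} := by
    ext z; simp [KK]
  rw [this]
  refine (S.closed_of_finiteDimensional.preimage (by fun_prop)).inter
    (isClosed_biInter fun p hp => isClosed_le (val_cont (hsm p hp)) continuous_const)

theorem dyn (S : Submodule ℝ (Fin d → ℝ)) (f : (Fin d → ℝ) → (Fin d → ℝ)) (hf : ContDiff ℝ 1 f)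
    (hfS : ∀ x, f x ∈ S) (c : Fin d → ℝ) (hc : ∀ i, 0 < c i)
    (W : Set ((Fin d → ℝ) × (ℝ → ℝ))) (hW : W.Finite) (hsm : ∀ p ∈ W, ContDiff ℝ 1 p.2) (a : ℝ)
    (h : ∀ᶠ θ in atTop, ∀ x : Fin d → ℝ, x - c ∈ S → (∀ p ∈ W, val θ x p ≤ 0) →
      (∀ i, 0 < x i ∧ x i ≤ exp (θ * a)) ∧
        ∀ p ∈ W, val θ x p = 0 → ∑ i, p.1 i * f x i < 0)
    (hex : ∀ x : Fin d → ℝ, (∀ i, 0 < x i) → ∀ᶠ θ in atTop, ∀ p ∈ W, val θ x p ≤ 0) :
    ∃ K : Set (Fin d → ℝ), K ⊆ {x | (∀ i, 0 < x i) ∧ x - c ∈ S} ∧ K.Nonempty ∧ IsCompact K ∧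
      Convex ℝ K ∧
      (∀ x : ℝ → (Fin d → ℝ), IsForwardSolution f x → x 0 ∈ K → ∀ t : ℝ, 0 ≤ t → x t ∈ K) ∧
      (∀ x₀ ∈ {x | (∀ i, 0 < x i) ∧ x - c ∈ S},
        (∃ x : ℝ → (Fin d → ℝ), IsForwardSolution f x ∧ x 0 = x₀) ∧
        (∀ x x' : ℝ → (Fin d → ℝ), IsForwardSolution f x →
          IsForwardSolution f x' → x 0 = x₀ → x' 0 = x₀ → ∀ t : ℝ, 0 ≤ t → x t = x' t) ∧
        (∀ x : ℝ → (Fin d → ℝ), IsForwardSolution f x → x 0 = x₀ →
          (∀ t : ℝ, 0 ≤ t → ∀ i, 0 < x t i) ∧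
          ∃ T : ℝ, 0 ≤ T ∧ ∀ t : ℝ, T ≤ t → x t ∈ K)) := by
  obtain ⟨θ₀, hθ₀⟩ := eventually_atTop.1 h
  obtain ⟨θ₁, hθ₁c, hθ₁⟩ := ((hex c hc).and (eventually_ge_atTop θ₀)).exists
  have hball : ∀ θ, θ₀ ≤ θ → KK S c W θ ⊆ closedBall 0 (exp (θ * a)) := by
    intro θ hθ x hx
    rw [mem_closedBall_zero_iff, pi_norm_le_iff_of_nonneg (exp_pos _).le]
    intro i
    have := (hθ₀ θ hθ x hx.1 hx.2).1 i
    rw [Real.norm_eq_abs, abs_of_pos this.1]; exact this.2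
  -- invariance for any field agreeing with `f` on the polytope
  have hS : ∀ (v : (Fin d → ℝ) → (Fin d → ℝ)), (∀ y, v y ∈ S) → ∀ x, IsForwardSolution v x →
      x 0 - c ∈ S → ∀ t, 0 ≤ t → x t - c ∈ S := by
    intro v hv x hx h0 t ht
    have := S.add_mem (stay_in S hv hx ht) h0
    rwa [sub_add_sub_cancel] at this
  have hinv : ∀ θ, θ₀ ≤ θ → ∀ (v : (Fin d → ℝ) → (Fin d → ℝ)), (∀ y, v y ∈ S) →
      (∀ y ∈ KK S c W θ, v y = f y) → ∀ x, IsForwardSolution v x → x 0 - c ∈ S →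
      ∀ t₀, 0 ≤ t₀ → x t₀ ∈ KK S c W θ → ∀ t, t₀ ≤ t → x t ∈ KK S c W θ := by
    intro θ hθ v hv hvf x hx h0 t₀ ht₀ hx₀ t ht
    refine ⟨hS v hv x hx h0 t (ht₀.trans ht), ?_⟩
    have := moving W hW hsm hx (t₁ := t) (θ := θ) (η := 0) ht₀ ?_ hx₀.2 t ⟨ht, le_rfl⟩
    · simpa using this
    · intro s hs h1 p hp h2
      simp only [zero_mul, sub_zero, add_zero] at h1 h2 ⊢
      have hm : x s - c ∈ S := hS v hv x hx h0 s (ht₀.trans hs.1)
      rw [hvf _ ⟨hm, h1⟩]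
      exact (hθ₀ θ hθ _ hm h1).2 p hp h2
  have hlip : ∀ r : ℝ, ∃ K : ℝ≥0, LipschitzOnWith K f (closedBall 0 r) := fun r =>
    (hf.contDiffOn (s := closedBall 0 r)).exists_lipschitzOnWith one_ne_zero
      (convex_closedBall _ _) (isCompact_closedBall _ _)
  refine ⟨KK S c W θ₁, fun x hx => ⟨fun i => ((hθ₀ θ₁ hθ₁ x hx.1 hx.2).1 i).1, hx.1⟩,
    ⟨c, by simp, hθ₁c⟩, ?_, KK_convex _ _ _ _, ?_, ?_⟩
  · refine (isCompact_closedBall 0 _).of_isClosed_subset ?_ (hball θ₁ hθ₁)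
    exact (KK_closed S c W hsm).preimage (f := fun x => (x, θ₁)) (by fun_prop)
  · intro x hx h0 t ht
    exact hinv θ₁ hθ₁ f hfS (fun _ _ => rfl) x hx h0.1 0 le_rfl h0 t ht
  rintro x₀ ⟨hx₀, hx₀S⟩
  obtain ⟨θ₂, hθ₂x, hθ₂⟩ := ((hex x₀ hx₀).and (eventually_ge_atTop θ₁)).exists
  have hθ₂' : θ₀ ≤ θ₂ := hθ₁.trans hθ₂
  have hstay : ∀ x, IsForwardSolution f x → x 0 = x₀ → ∀ t, 0 ≤ t → x t ∈ KK S c W θ₂ := by
    intro x hx h0 t ht
    exact hinv θ₂ hθ₂' f hfS (fun _ _ => rfl) x hx (h0 ▸ hx₀S) 0 le_rfl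
      (h0 ▸ ⟨hx₀S, hθ₂x⟩) t ht
  refine ⟨?_, ?_, ?_⟩
  · set B := exp (θ₂ * a) with hB
    have hB0 : 0 < B := exp_pos _
    set clip : (Fin d → ℝ) → (Fin d → ℝ) := fun y i => max (-B) (min (y i) B) with hclip
    have hclipB : ∀ y, clip y ∈ closedBall (0 : Fin d → ℝ) B := by
      intro y
      rw [mem_closedBall_zero_iff, pi_norm_le_iff_of_nonneg hB0.le]
      intro i
      rw [Real.norm_eq_abs, abs_le]
      exact ⟨le_max_left _ _, max_le (by linarith) (min_le_right _ _)⟩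
    have hclipL : LipschitzWith 1 clip := by
      refine LipschitzWith.of_dist_le_mul fun y z => ?_
      rw [NNReal.coe_one, one_mul, dist_pi_le_iff dist_nonneg]
      intro i
      have h1 : LipschitzWith 1 (fun u : ℝ => max (-B) (min u B)) :=
        (LipschitzWith.id.min_const B).const_max (-B)
      have h2 := h1.dist_le_mul (y i) (z i)
      rw [NNReal.coe_one, one_mul] at h2
      exact h2.trans (dist_le_pi_dist y z i)
    have hclipK : ∀ y ∈ KK S c W θ₂, clip y = y := by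
      intro y hy
      funext i
      have := (hθ₀ θ₂ hθ₂' y hy.1 hy.2).1 i
      simp only [hclip]
      rw [min_eq_left this.2, max_eq_right (by linarith [this.1])]
    obtain ⟨K, hK⟩ := hlip B
    obtain ⟨L, hL⟩ := (isCompact_closedBall (0 : Fin d → ℝ) B).exists_bound_of_continuousOn
      hf.continuous.continuousOn
    have hvL : LipschitzWith (K * 1) (f ∘ clip) := by
      rw [← lipschitzOnWith_univ]
      exact hK.comp hclipL.lipschitzOnWith fun y _ => hclipB y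
    obtain ⟨x, hx, h0⟩ := global_exists (L := L.toNNReal) hvL
      (fun y => (hL _ (hclipB y)).trans (Real.le_coe_toNNReal L)) x₀
    refine ⟨x, fun t ht => ?_, h0⟩
    have hm := hinv θ₂ hθ₂' (f ∘ clip) (fun y => hfS _)
      (fun y hy => by simp only [Function.comp]; rw [hclipK y hy]) x hx (h0 ▸ hx₀S) 0 le_rfl
      (h0 ▸ ⟨hx₀S, hθ₂x⟩) t ht
    have := hx t ht
    simp only [Function.comp] at this
    rwa [hclipK _ hm] at this
  · intro x x' hx hx' h0 h0' t ht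
    obtain ⟨K, hK⟩ := hlip (exp (θ₂ * a))
    exact ODE_solution_unique_of_mem_Icc_right (v := fun _ => f)
      (s := fun _ => closedBall 0 (exp (θ₂ * a))) (fun _ _ => hK)
      ((fs_cont hx).mono Icc_subset_Ici_self) (fun s hs => fs_right hx hs.1)
      (fun s hs => hball θ₂ hθ₂' (hstay x hx h0 s hs.1))
      ((fs_cont hx').mono Icc_subset_Ici_self) (fun s hs => fs_right hx' hs.1)
      (fun s hs => hball θ₂ hθ₂' (hstay x' hx' h0' s hs.1)) (h0.trans h0'.symm) ⟨ht, le_rfl⟩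
  · intro x hx h0
    refine ⟨fun t ht i => ((hθ₀ θ₂ hθ₂' _ (hstay x hx h0 t ht).1 (hstay x hx h0 t ht).2).1 i).1, ?_⟩
    obtain ⟨B, hB⟩ := (isCompact_Icc (a := θ₁) (b := θ₂)).exists_bound_of_continuousOn
      (f := fun θ => exp (θ * a)) (by fun_prop)
    have hη : ∀ᶠ η in 𝓝 (0 : ℝ), ∀ p ∈ W, ∀ z : (Fin d → ℝ) × ℝ,
        z ∈ ({z : (Fin d → ℝ) × ℝ | z.1 ∈ KK S c W z.2} ∩ {z | val z.2 z.1 p = 0}) ∩
          (univ ×ˢ Icc θ₁ θ₂) → ∑ i, p.1 i * f z.1 i + η * deriv p.2 z.2 < 0 := by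
      rw [eventually_all_finite hW]
      intro p hp
      have hcomp : IsCompact (({z : (Fin d → ℝ) × ℝ | z.1 ∈ KK S c W z.2} ∩
          {z | val z.2 z.1 p = 0}) ∩ (univ ×ˢ Icc θ₁ θ₂)) := by
        refine ((isCompact_closedBall (0 : Fin d → ℝ) B).prod
          (isCompact_Icc (a := θ₁) (b := θ₂))).of_isClosed_subset ?_ ?_
        · exact ((KK_closed S c W hsm).inter
            (isClosed_eq (val_cont (hsm p hp)) continuous_const)).inter
            (isClosed_univ.prod isClosed_Icc)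
        · rintro z ⟨⟨h1, -⟩, -, h2⟩
          refine ⟨closedBall_subset_closedBall ?_ (hball z.2 (hθ₁.trans h2.1) h1), h2⟩
          exact (le_abs_self _).trans (hB _ h2)
      refine hcomp.eventually_forall_of_forall_eventually fun z hz => ?_
      have hcont : Continuous fun u : ℝ × ((Fin d → ℝ) × ℝ) =>
          ∑ i, p.1 i * f u.2.1 i + u.1 * deriv p.2 u.2.2 := by
        have h1 := hf.continuous
        have h2 := (hsm p hp).continuous_deriv le_rfl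
        fun_prop
      refine hcont.continuousAt.eventually_lt_const ?_
      simpa using (hθ₀ z.2 (hθ₁.trans hz.2.2.1) z.1 hz.1.1.1 hz.1.1.2).2 p hp hz.1.2
    obtain ⟨η, hη, hη0⟩ := ((hη.filter_mono nhdsWithin_le_nhds).and
      (self_mem_nhdsWithin (s := Ioi (0 : ℝ)))).exists
    have hη0' : 0 < η := hη0
    set T := (θ₂ - θ₁) / η with hT
    have hT0 : 0 ≤ T := div_nonneg (by linarith) hη0'.le
    have hηT : η * T = θ₂ - θ₁ := by rw [hT]; field_simp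
    have hm := moving W hW hsm hx (t₀ := 0) (t₁ := T) (θ := θ₂) (η := η) le_rfl ?_
      (h0 ▸ hθ₂x) T ⟨hT0, le_rfl⟩
    · refine ⟨T, hT0, fun t ht => hinv θ₁ hθ₁ f hfS (fun _ _ => rfl) x hx (h0 ▸ hx₀S) T hT0
        ⟨(hstay x hx h0 T hT0).1, ?_⟩ t ht⟩
      have : θ₂ - η * (T - 0) = θ₁ := by rw [sub_zero, hηT]; ring
      rwa [this] at hm
    · intro s hs h1 p hp h2
      refine hη p hp (x s, θ₂ - η * (s - 0)) ⟨⟨⟨(hstay x hx h0 s hs.1).1, h1⟩, h2⟩, trivial, ?_, ?_⟩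
      · have := mul_le_mul_of_nonneg_left hs.2.le hη0'.le
        simp only; linarith
      · have := mul_nonneg hη0'.le hs.1
        simp only; linarith

end Crest.Agent.CRN
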