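import Mathlib

set_option autoImplicit false

namespace Crest.Agent.CRN

open Finset Filter Real

variable {ι : Type*} [Fintype ι] [DecidableEq ι]

/-- Every bounded integer combination of the entries of `w` and `τ` vanishes or is `≥ D`. -/
def Inv (N : ℕ) (D : ℝ) (w : ι → ℝ) (τ : ℝ) : Prop :=
  ∀ (g : ι → ℤ) (m : ℤ), (∀ i, |g i| ≤ N) → |m| ≤ N →
    ∑ i, (g i : ℝ) * w i + m * τ = 0 ∨ D ≤ |∑ i, (g i : ℝ) * w i + m * τ|

/-- The value of an affine piece. -/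
def val (θ : ℝ) (x : ι → ℝ) (p : (ι → ℝ) × (ℝ → ℝ)) : ℝ := ∑ i, p.1 i * x i - p.2 θ

/-- A good family of affine pieces. -/
structure Good (N₀ : ℕ) (Λ₀ μ L E Γ : ℝ) (U : Finset ι) (w : ι → ℝ) (τ : ℝ)
    (W : Set ((ι → ℝ) × (ℝ → ℝ))) : Prop where
  fin : W.Finite
  off : ∀ p ∈ W, ∀ i, i ∉ U → p.1 i = w i
  lt : ∀ p ∈ W, ∀ i ∈ U, p.1 i < τ
  smooth : ∀ p ∈ W, ContDiff ℝ 1 p.2
  nonneg : ∀ p ∈ W, ∀ θ, 0 ≤ p.2 θ
  cheap : ∃ p ∈ W, ∀ θ, 0 ≤ θ → p.2 θ ≤ U.card * exp (-(θ * Γ))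
  main : ∀ᶠ θ in atTop, ∀ x : ι → ℝ,
    (∀ i ∈ U, exp (-(θ * Γ)) ≤ x i ∧ x i ≤ exp (θ * (τ - μ * E))) →
    ∀ p ∈ W, (∀ q ∈ W, val θ x q ≤ val θ x p) →
      ∃ E', E ≤ E' ∧ E' ≤ L * E ∧ Inv N₀ (Λ₀ * E') p.1 0 ∧
        ∀ i ∈ U, exp (θ * (p.1 i - E')) ≤ x i ∧ x i ≤ exp (θ * (p.1 i + E'))

/-- block cost -/
noncomputable def bc (ν s e : ℝ) (m : ℕ) (θ : ℝ) : ℝ :=
  ∑ j ∈ range m, exp (θ * (s - ν ^ j * e + 1))

lemma bc_nonneg (ν s e : ℝ) (m : ℕ) (θ : ℝ) : 0 ≤ bc ν s e m θ :=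
  Finset.sum_nonneg fun _ _ => (exp_pos _).le

lemma bc_smooth (ν s e : ℝ) (m : ℕ) : ContDiff ℝ 1 (bc ν s e m) := by
  unfold bc
  fun_prop

lemma bc_succ (ν s e : ℝ) (m : ℕ) (θ : ℝ) :
    bc ν s e (m + 1) θ = bc ν s e m θ + exp (θ * (s - ν ^ m * e + 1)) := by
  simp [bc, Finset.sum_range_succ]

lemma bc_le {ν s e θ : ℝ} (hν : 1 ≤ ν) (he : 0 ≤ e) (hθ : 0 ≤ θ) (m k : ℕ) :
    bc ν s e (m + k) θ ≤ bc ν s e m θ + k * exp (θ * (s - ν ^ m * e + 1)) := by
  induction k with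
  | zero => simp
  | succ k ih =>
    rw [← add_assoc, bc_succ]
    have h1 : ν ^ m ≤ ν ^ (m + k) := pow_le_pow_right₀ hν (by omega)
    have h2 : exp (θ * (s - ν ^ (m + k) * e + 1)) ≤ exp (θ * (s - ν ^ m * e + 1)) := by
      apply exp_le_exp.2
      apply mul_le_mul_of_nonneg_left _ hθ
      nlinarith
    push_cast
    linarith

lemma ev_mul_exp {δ : ℝ} (hδ : 0 < δ) (C : ℝ) : ∀ᶠ θ in atTop, C < δ * exp θ :=
  (tendsto_exp_atTop.const_mul_atTop hδ).eventually_gt_atTop C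

/-- promotion inequality -/
lemma promote {θ : ℝ} {x : ι → ℝ} {U : Finset ι} {p q : (ι → ℝ) × (ℝ → ℝ)}
    (hx : ∀ i ∈ U, 0 ≤ x i) (hoff : ∀ i, i ∉ U → p.1 i = q.1 i) (hle : ∀ i ∈ U, p.1 i ≤ q.1 i)
    (hv : val θ x q ≤ val θ x p) (i : ι) :
    (q.1 i - p.1 i) * x i ≤ q.2 θ - p.2 θ := by
  have h1 : (q.1 i - p.1 i) * x i ≤ ∑ j, (q.1 j - p.1 j) * x j := by
    refine Finset.single_le_sum (f := fun j => (q.1 j - p.1 j) * x j) (fun j _ => ?_) (mem_univ i)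
    by_cases hj : j ∈ U
    · exact mul_nonneg (sub_nonneg.2 (hle j hj)) (hx j hj)
    · simp [hoff j hj]
  have h2 : ∑ j, (q.1 j - p.1 j) * x j = ∑ j, q.1 j * x j - ∑ j, p.1 j * x j := by
    rw [← Finset.sum_sub_distrib]; exact Finset.sum_congr rfl fun j _ => by ring
  unfold val at hv
  linarith

/-- demotion inequality -/
lemma demote {θ b : ℝ} {x : ι → ℝ} {V : Finset ι} {p q : (ι → ℝ) × (ℝ → ℝ)}
    (hx : ∀ i ∈ V, 0 ≤ x i ∧ x i ≤ b) (hoff : ∀ i, i ∉ V → p.1 i = q.1 i)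
    (hv : val θ x q ≤ val θ x p) :
    p.2 θ - q.2 θ ≤ (∑ j, |p.1 j - q.1 j|) * b := by
  have h1 : ∑ j, (p.1 j - q.1 j) * x j ≤ ∑ j, |p.1 j - q.1 j| * b := by
    refine Finset.sum_le_sum fun j _ => ?_
    by_cases hj : j ∈ V
    · exact (mul_le_mul_of_nonneg_right (le_abs_self _) (hx j hj).1).trans
        (mul_le_mul_of_nonneg_left (hx j hj).2 (abs_nonneg _))
    · simp [hoff j hj]
  have h2 : ∑ j, (p.1 j - q.1 j) * x j = ∑ j, p.1 j * x j - ∑ j, q.1 j * x j := by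
    rw [← Finset.sum_sub_distrib]; exact Finset.sum_congr rfl fun j _ => by ring
  rw [Finset.sum_mul]
  unfold val at hv
  linarith

theorem step (N₀ : ℕ) (Λ₀ μ₁ L₁ μ L E Γ : ℝ) (U : Finset ι) (w : ι → ℝ) (τ : ℝ)
    (hU : U.Nonempty) (G : Finset ℝ) (e : ℝ → ℝ) (hμ₁ : 1 ≤ μ₁) (hL₁ : 1 ≤ L₁) (hE : 3 ≤ E)
    (hG : ∀ s ∈ G, s < τ ∧ E ≤ e s ∧ L₁ * ((μ₁ + 2) ^ Fintype.card ι * e s) ≤ L * E ∧
      (τ - μ * E ≤ s + e s ∨ ∃ s' ∈ G, s < s' ∧ s' - e s' + 1 ≤ s + e s - 1))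
    (hbot : ∃ s ∈ G, s ≤ -Γ)
    (ch : ∀ s ∈ G, ∀ B : Finset ι, B ⊆ U → B.Nonempty → ∃ W,
      Good N₀ Λ₀ μ₁ L₁ ((μ₁ + 2) ^ (B.card - 1) * e s) Γ (U \ B)
        (B.piecewise (fun _ => s) w) s W) :
    ∃ W, Good N₀ Λ₀ μ L E Γ U w τ W := by
  classical
  choose! Wc hWc using ch
  set ν : ℝ := μ₁ + 2 with hν
  have hν1 : 1 ≤ ν := by linarith
  set n : ℕ := Fintype.card ι with hn
  set F : ℝ → Finset ι → (ι → ℝ) × (ℝ → ℝ) → (ι → ℝ) × (ℝ → ℝ) :=
    fun s B p => (p.1, fun θ => bc ν s (e s) B.card θ + p.2 θ) with hF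
  set W : Set ((ι → ℝ) × (ℝ → ℝ)) :=
    {p' | ∃ s ∈ G, ∃ B : Finset ι, B ⊆ U ∧ B.Nonempty ∧ ∃ p ∈ Wc s B, p' = F s B p} with hW
  have hWfin : W.Finite := by
    have : W ⊆ ⋃ s ∈ (G : Set ℝ), ⋃ B ∈ {B : Finset ι | B ⊆ U ∧ B.Nonempty},
        F s B '' Wc s B := by
      rintro p' ⟨s, hs, B, hBU, hB, p, hp, hp'⟩
      exact Set.mem_biUnion (x := s) hs (Set.mem_biUnion (x := B) ⟨hBU, hB⟩ ⟨p, hp, hp'.symm⟩)
    refine Set.Finite.subset ?_ this
    refine G.finite_toSet.biUnion fun s hs => ?_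
    refine (Set.toFinite _).biUnion fun B hB => ?_
    exact ((hWc s hs B hB.1 hB.2).fin).image _
  have hmemW : ∀ s ∈ G, ∀ B : Finset ι, B ⊆ U → B.Nonempty → ∀ p ∈ Wc s B, F s B p ∈ W :=
    fun s hs B hBU hB p hp => ⟨s, hs, B, hBU, hB, p, hp, rfl⟩
  -- description of the first components
  have hB_eq : ∀ s ∈ G, ∀ B : Finset ι, B ⊆ U → B.Nonempty → ∀ p ∈ Wc s B, ∀ i ∈ B, p.1 i = s := by
    intro s hs B hBU hB p hp i hi
    rw [(hWc s hs B hBU hB).off p hp i (by simp [hi]), Finset.piecewise_eq_of_mem _ _ _ hi]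
  have hoff : ∀ s ∈ G, ∀ B : Finset ι, B ⊆ U → B.Nonempty → ∀ p ∈ Wc s B, ∀ i, i ∉ U →
      p.1 i = w i := by
    intro s hs B hBU hB p hp i hi
    rw [(hWc s hs B hBU hB).off p hp i (by simp [hi]),
      Finset.piecewise_eq_of_notMem _ _ _ (fun h => hi (hBU h))]
  have hle : ∀ s ∈ G, ∀ B : Finset ι, B ⊆ U → B.Nonempty → ∀ p ∈ Wc s B, ∀ i ∈ U,
      p.1 i ≤ s := by
    intro s hs B hBU hB p hp i hi
    by_cases h : i ∈ B
    · exact (hB_eq s hs B hBU hB p hp i h).le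
    · exact ((hWc s hs B hBU hB).lt p hp i (by simp [hi, h])).le
  have hcardU : U.card ≤ n := Finset.card_le_univ U
  have he0 : ∀ s ∈ G, 3 ≤ e s := fun s hs => hE.trans (hG s hs).2.1
  -- the all-at-level-`s` element
  have htop : ∀ s ∈ G, ∃ q ∈ W, (∀ i ∈ U, q.1 i = s) ∧ (∀ i, i ∉ U → q.1 i = w i) ∧
      ∀ θ, 0 ≤ θ → q.2 θ ≤ bc ν s (e s) U.card θ := by
    intro s hs
    obtain ⟨q, hq, hc⟩ := (hWc s hs U subset_rfl hU).cheap
    refine ⟨F s U q, hmemW s hs U subset_rfl hU q hq, hB_eq s hs U subset_rfl hU q hq,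
      hoff s hs U subset_rfl hU q hq, fun θ hθ => ?_⟩
    have := hc θ hθ
    simp only [sdiff_self, bot_eq_empty, card_empty, Nat.cast_zero, zero_mul] at this
    simp only [hF]
    linarith
  have hcheap : ∃ p ∈ W, ∀ θ, 0 ≤ θ → p.2 θ ≤ U.card * exp (-(θ * Γ)) := by
    obtain ⟨s, hs, hsΓ⟩ := hbot
    obtain ⟨q, hq, -, -, hc⟩ := htop s hs
    refine ⟨q, hq, fun θ hθ => (hc θ hθ).trans ?_⟩
    have h1 := bc_le (s := s) hν1 (by linarith [he0 s hs] : 0 ≤ e s) hθ 0 U.card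
    simp only [zero_add, bc, range_zero, sum_empty, pow_zero, one_mul] at h1
    refine le_trans h1 (mul_le_mul_of_nonneg_left (exp_le_exp.2 ?_) (Nat.cast_nonneg _))
    have := he0 s hs
    nlinarith
  have hWoff : ∀ p ∈ W, ∀ i, i ∉ U → p.1 i = w i := by
    rintro p' ⟨s, hs, B, hBU, hB, p, hp, rfl⟩ i hi
    exact hoff s hs B hBU hB p hp i hi
  have hWnn : ∀ p ∈ W, ∀ θ, 0 ≤ p.2 θ := by
    rintro p' ⟨s, hs, B, hBU, hB, p, hp, rfl⟩ θ
    exact add_nonneg (bc_nonneg _ _ _ _ _) ((hWc s hs B hBU hB).nonneg p hp θ)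
  refine ⟨W, hWfin, hWoff, ?_, ?_, hWnn, hcheap, ?_⟩
  · rintro p' ⟨s, hs, B, hBU, hB, p, hp, rfl⟩ i hi
    exact (hle s hs B hBU hB p hp i hi).trans_lt (hG s hs).1
  · rintro p' ⟨s, hs, B, hBU, hB, p, hp, rfl⟩
    exact (bc_smooth _ _ _ _).add ((hWc s hs B hBU hB).smooth p hp)
  have ev1 : ∀ᶠ θ in atTop, ∀ p ∈ W, ∀ q ∈ W, ∀ i, p.1 i < q.1 i →
      (n : ℝ) < (q.1 i - p.1 i) * exp θ := by
    rw [eventually_all_finite hWfin]
    intro p _
    rw [eventually_all_finite hWfin]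
    intro q _
    rw [eventually_all]
    intro i
    by_cases h : p.1 i < q.1 i
    · filter_upwards [ev_mul_exp (sub_pos.2 h) n] with θ hθ _ using hθ
    · exact Eventually.of_forall fun θ h' => absurd h' h
  have ev2 : ∀ᶠ θ in atTop, ∀ p ∈ W, ∀ q ∈ W, (∑ j, |p.1 j - q.1 j|) + n < 1 * exp θ := by
    rw [eventually_all_finite hWfin]
    intro p _
    rw [eventually_all_finite hWfin]
    intro q _
    exact ev_mul_exp one_pos _
  have ev3 : ∀ᶠ θ in atTop, ∀ s ∈ G, ∀ B ∈ U.powerset, B.Nonempty → ∀ x : ι → ℝ,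
      (∀ i ∈ U \ B, exp (-(θ * Γ)) ≤ x i ∧
        x i ≤ exp (θ * (s - μ₁ * (ν ^ (B.card - 1) * e s)))) →
      ∀ p ∈ Wc s B, (∀ q ∈ Wc s B, val θ x q ≤ val θ x p) →
        ∃ E', ν ^ (B.card - 1) * e s ≤ E' ∧ E' ≤ L₁ * (ν ^ (B.card - 1) * e s) ∧
          Inv N₀ (Λ₀ * E') p.1 0 ∧
          ∀ i ∈ U \ B, exp (θ * (p.1 i - E')) ≤ x i ∧ x i ≤ exp (θ * (p.1 i + E')) := by
    rw [eventually_all_finset]
    intro s hs
    rw [eventually_all_finset]
    intro B hB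
    by_cases h : B.Nonempty
    · filter_upwards [(hWc s hs B (mem_powerset.1 hB) h).main] with θ hθ _ using hθ
    · exact Eventually.of_forall fun θ h' => absurd h' h
  filter_upwards [ev1, ev2, ev3, eventually_ge_atTop 0] with θ h1 h2 h3 hθ x hx p' hp' hmax
  have hp'W := hp'
  obtain ⟨s, hs, B, hBU, hB, p, hp, rfl⟩ := hp'
  have hx0 : ∀ i ∈ U, 0 ≤ x i := fun i hi => (exp_pos _).le.trans (hx i hi).1
  obtain ⟨m, hm⟩ : ∃ m, B.card = m + 1 := ⟨B.card - 1, by have := hB.card_pos; omega⟩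
  have hm1 : B.card - 1 = m := by omega
  have hes := he0 s hs
  have hνm : 1 ≤ ν ^ m := one_le_pow₀ hν1
  have hBn : B.card ≤ U.card := Finset.card_le_card hBU
  -- Step 1: upper bound outside the block
  have S1 : ∀ i ∈ U \ B, x i ≤ exp (θ * (s - ν ^ (m + 1) * e s + 2)) := by
    intro i hi
    have hiU : i ∈ U := (mem_sdiff.1 hi).1
    obtain ⟨q, hq, hq1, hq2, hq3⟩ := htop s hs
    have hlt : p.1 i < s := (hWc s hs B hBU hB).lt p hp i hi
    have hpr := promote (p := F s B p) (q := q) (U := U) hx0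
      (fun j hj => by rw [hq2 j hj]; exact hoff s hs B hBU hB p hp j hj)
      (fun j hj => by rw [hq1 j hj]; exact hle s hs B hBU hB p hp j hj) (hmax q hq) i
    have h4 := h1 (F s B p) hp'W q hq i (by rw [hq1 i hiU]; exact hlt)
    obtain ⟨k, hk⟩ := Nat.exists_eq_add_of_le hBn
    have h5 := bc_le (s := s) hν1 (by linarith : 0 ≤ e s) hθ B.card k
    rw [← hk] at h5
    have h6 := hq3 θ hθ
    have h7 := (hWc s hs B hBU hB).nonneg p hp θ
    have hkn : (k : ℝ) ≤ n := by exact_mod_cast (by omega : k ≤ n)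
    simp only [hF] at hpr h4
    rw [hm] at h5 hpr
    by_contra hcon
    push Not at hcon
    have h8 : exp (θ * (s - ν ^ (m + 1) * e s + 2)) =
        exp θ * exp (θ * (s - ν ^ (m + 1) * e s + 1)) := by
      rw [← exp_add]; congr 1; ring
    rw [h8] at hcon
    have hA := exp_pos (θ * (s - ν ^ (m + 1) * e s + 1))
    set A := exp (θ * (s - ν ^ (m + 1) * e s + 1))
    have hd : 0 < q.1 i - p.1 i := by rw [hq1 i hiU]; linarith
    have h9 : (q.1 i - p.1 i) * (exp θ * A) < (q.1 i - p.1 i) * x i :=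
      mul_lt_mul_of_pos_left hcon hd
    have h10 : (n : ℝ) * A < (q.1 i - p.1 i) * exp θ * A := mul_lt_mul_of_pos_right h4 hA
    have h11 : (k : ℝ) * A ≤ n * A := mul_le_mul_of_nonneg_right hkn hA.le
    nlinarith
  -- Step 2: upper bound in the block
  have S2 : ∀ i ∈ B, x i ≤ exp (θ * (s + e s)) := by
    intro i hi
    have hiU : i ∈ U := hBU hi
    rcases (hG s hs).2.2.2 with h | ⟨s', hs', hss', h⟩
    · exact (hx i hiU).2.trans (exp_le_exp.2 (mul_le_mul_of_nonneg_left h hθ))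
    obtain ⟨q, hq, hq1, hq2, hq3⟩ := htop s' hs'
    have hpi : p.1 i = s := hB_eq s hs B hBU hB p hp i hi
    have hpr := promote (p := F s B p) (q := q) (U := U) hx0
      (fun j hj => by rw [hq2 j hj]; exact hoff s hs B hBU hB p hp j hj)
      (fun j hj => by
        rw [hq1 j hj]; exact (hle s hs B hBU hB p hp j hj).trans hss'.le) (hmax q hq) i
    have h4 := h1 (F s B p) hp'W q hq i (by rw [hq1 i hiU]; simp only [hF]; rw [hpi]; exact hss')
    have h5 := bc_le (s := s') hν1 (by linarith [he0 s' hs'] : 0 ≤ e s') hθ 0 U.card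
    simp only [zero_add, pow_zero, one_mul] at h5
    have h50 : bc ν s' (e s') 0 θ = 0 := by simp [bc]
    have h6 := hq3 θ hθ
    have h7 := hWnn _ hp'W θ
    have hkn : (U.card : ℝ) ≤ n := by exact_mod_cast hcardU
    have h12 : exp (θ * (s' - e s' + 1)) ≤ exp (θ * (s + e s - 1)) :=
      exp_le_exp.2 (mul_le_mul_of_nonneg_left h hθ)
    by_contra hcon
    push Not at hcon
    have h8 : exp (θ * (s + e s)) = exp θ * exp (θ * (s + e s - 1)) := by
      rw [← exp_add]; congr 1; ring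
    rw [h8] at hcon
    have hA := exp_pos (θ * (s + e s - 1))
    have hA' := exp_pos (θ * (s' - e s' + 1))
    set A := exp (θ * (s + e s - 1))
    set A' := exp (θ * (s' - e s' + 1))
    have hd : 0 < q.1 i - (F s B p).1 i := by
      rw [hq1 i hiU]; simp only [hF]; rw [hpi]; linarith
    have h9 : (q.1 i - (F s B p).1 i) * (exp θ * A) < (q.1 i - (F s B p).1 i) * x i :=
      mul_lt_mul_of_pos_left hcon hd
    have h10 : (n : ℝ) * A < (q.1 i - (F s B p).1 i) * exp θ * A := mul_lt_mul_of_pos_right h4 hA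
    have h11 : (U.card : ℝ) * A' ≤ n * A := mul_le_mul hkn h12 hA'.le (Nat.cast_nonneg _)
    nlinarith
  -- Step 3: lower bound in the block
  have S3 : ∀ i ∈ B, exp (θ * (s - ν ^ m * e s)) ≤ x i := by
    intro i hi
    have hiU : i ∈ U := hBU hi
    have hz : ∃ z ∈ W, (∀ j, j ∉ U \ B.erase i → p.1 j = z.1 j) ∧
        z.2 θ ≤ bc ν s (e s) m θ + n * exp (-(θ * Γ)) := by
      by_cases hB' : (B.erase i).Nonempty
      · have hsub : B.erase i ⊆ U := (erase_subset _ _).trans hBU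
        obtain ⟨q, hq, hc⟩ := (hWc s hs _ hsub hB').cheap
        refine ⟨F s _ q, hmemW s hs _ hsub hB' q hq, fun j hj => ?_, ?_⟩
        · simp only [hF]
          by_cases hjU : j ∈ U
          · have hjB : j ∈ B.erase i := by
              by_contra hh
              exact hj (mem_sdiff.2 ⟨hjU, hh⟩)
            rw [hB_eq s hs _ hsub hB' q hq j hjB,
              hB_eq s hs B hBU hB p hp j (mem_of_mem_erase hjB)]
          · rw [hoff s hs _ hsub hB' q hq j hjU, hoff s hs B hBU hB p hp j hjU]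
        · simp only [hF]
          rw [card_erase_of_mem hi, hm1]
          have h13 : ((U \ B.erase i).card : ℝ) ≤ n := by
            exact_mod_cast Finset.card_le_univ _
          have := hc θ hθ
          have h14 := mul_le_mul_of_nonneg_right h13 (exp_pos (-(θ * Γ))).le
          linarith
      · obtain ⟨z, hz, hc⟩ := hcheap
        refine ⟨z, hz, fun j hj => ?_, ?_⟩
        · have hjU : j ∉ U := by
            rw [Finset.not_nonempty_iff_eq_empty.1 hB'] at hj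
            simpa using hj
          rw [hWoff z hz j hjU, hoff s hs B hBU hB p hp j hjU]
        · have h13 : (U.card : ℝ) ≤ n := by exact_mod_cast hcardU
          have := hc θ hθ
          have h14 := mul_le_mul_of_nonneg_right h13 (exp_pos (-(θ * Γ))).le
          have := bc_nonneg ν s (e s) m θ
          linarith
    obtain ⟨z, hzW, hz1, hz2⟩ := hz
    by_contra hcon
    push Not at hcon
    have hA := exp_pos (θ * (s - ν ^ m * e s))
    have hde := demote (p := F s B p) (q := z) (V := U \ B.erase i) (x := x) (θ := θ)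
      (b := exp (θ * (s - ν ^ m * e s)))
      (fun j hj => ⟨hx0 j (mem_sdiff.1 hj).1, ?_⟩) hz1 (hmax z hzW)
    · have h4 := h2 (F s B p) hp'W z hzW
      have h5 := (hWc s hs B hBU hB).nonneg p hp θ
      have h6 : (F s B p).2 θ = bc ν s (e s) m θ + exp (θ * (s - ν ^ m * e s + 1)) + p.2 θ := by
        simp only [hF]; rw [hm, bc_succ]
      have h8 : exp (θ * (s - ν ^ m * e s + 1)) = exp θ * exp (θ * (s - ν ^ m * e s)) := by
        rw [← exp_add]; congr 1; ring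
      have h9 : exp (-(θ * Γ)) ≤ exp (θ * (s - ν ^ m * e s)) := (hx i hiU).1.trans hcon.le
      have h10 := mul_le_mul_of_nonneg_left h9 (Nat.cast_nonneg (α := ℝ) n)
      have h11 := mul_lt_mul_of_pos_right h4 hA
      rw [h6, h8] at hde
      nlinarith
    · by_cases hji : j = i
      · rw [hji]; exact hcon.le
      · have hjB : j ∈ U \ B := by
          rw [Finset.mem_sdiff] at hj ⊢
          exact ⟨hj.1, fun h => hj.2 (mem_erase.2 ⟨hji, h⟩)⟩
        refine (S1 j hjB).trans (exp_le_exp.2 (mul_le_mul_of_nonneg_left ?_ hθ))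
        have : ν ^ (m + 1) * e s = ν ^ m * e s + (μ₁ + 1) * (ν ^ m * e s) := by
          rw [pow_succ, hν]; ring
        have h15 : 3 ≤ ν ^ m * e s := by nlinarith
        nlinarith
  -- use the child
  obtain ⟨E', hE1, hE2, hinv, hbd⟩ := h3 s hs B (mem_powerset.2 hBU) hB x (fun i hi => ⟨(hx i
    (mem_sdiff.1 hi).1).1, (S1 i hi).trans (exp_le_exp.2 (mul_le_mul_of_nonneg_left (by
      rw [hm1]
      have : ν ^ (m + 1) * e s = μ₁ * (ν ^ m * e s) + 2 * (ν ^ m * e s) := by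
        rw [pow_succ, hν]; ring
      have h15 : 3 ≤ ν ^ m * e s := by nlinarith
      linarith) hθ))⟩) p hp (fun q hq => by
      have := hmax _ (hmemW s hs B hBU hB q hq)
      simp only [val, hF] at this ⊢
      linarith)
  rw [hm1] at hE1 hE2
  have hes' : e s ≤ ν ^ m * e s := by nlinarith
  refine ⟨E', by linarith [(hG s hs).2.1], ?_, hinv, fun i hi => ?_⟩
  · refine hE2.trans (le_trans ?_ (hG s hs).2.2.1)
    refine mul_le_mul_of_nonneg_left (mul_le_mul_of_nonneg_right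
      (pow_le_pow_right₀ hν1 (by omega)) (by linarith)) (by linarith)
  · by_cases h : i ∈ B
    · have hpi : (F s B p).1 i = s := hB_eq s hs B hBU hB p hp i h
      rw [hpi]
      exact ⟨le_trans (exp_le_exp.2 (mul_le_mul_of_nonneg_left (by linarith) hθ)) (S3 i h),
        (S2 i h).trans (exp_le_exp.2 (mul_le_mul_of_nonneg_left (by linarith) hθ))⟩
    · exact hbd i (mem_sdiff.2 ⟨hi, h⟩)

end Crest.Agent.CRN
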