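import Crest.Prelude.Def_MassAction

set_option autoImplicit false

namespace Crest.Agent.CRN

open Finset Filter Crest.AnalysisR.MassAction

/-- the level of a complex with respect to `w` -/
noncomputable def lev {d : ℕ} (w : Fin d → ℝ) (y : Fin d → ℕ) : ℝ := ∑ i, w i * (y i : ℝ)

/-- the monomial of a complex -/
noncomputable def mono {d : ℕ} (x : Fin d → ℝ) (y : Fin d → ℕ) : ℝ := ∏ i, x i ^ (y i)

lemma exists_down_edge {d : ℕ} (R : Network d) (w : Fin d → ℝ) (a : ℝ) (y y' : Fin d → ℕ)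
    (h : Relation.ReflTransGen (fun a b => (a, b) ∈ R) y y') (hy : a < lev w y)
    (hy' : lev w y' ≤ a) : ∃ r ∈ R, a < lev w r.1 ∧ lev w r.2 ≤ a := by
  induction h with
  | refl => linarith
  | @tail b c _ hbc ih =>
    by_cases hb : lev w b ≤ a
    · exact ih hb
    · exact ⟨(b, c), hbc, by push Not at hb; exact hb, hy'⟩

lemma dot_field {d : ℕ} (R : Network d) (k : (Fin d → ℕ) × (Fin d → ℕ) → ℝ) (w x : Fin d → ℝ) :
    ∑ i, w i * field R k x i = ∑ r ∈ R, k r * mono x r.1 * (lev w r.2 - lev w r.1) := by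
  simp only [field, Finset.sum_apply, Pi.smul_apply, smul_eq_mul, Finset.mul_sum, reactionVector,
    mono, lev, ← Finset.sum_sub_distrib]
  rw [Finset.sum_comm]
  refine Finset.sum_congr rfl fun r _ => Finset.sum_congr rfl fun i _ => by ring

/-- The toric inclusion lemma. -/
theorem toric {d : ℕ} (R : Network d) (hR : IsWeaklyReversible R)
    (k : (Fin d → ℕ) × (Fin d → ℕ) → ℝ) (hk : ∀ r ∈ R, 0 < k r) (w : Fin d → ℝ) :
    ∀ᶠ M : ℝ in atTop, ∀ x : Fin d → ℝ, (∀ i, 0 < x i) →
      (∀ r ∈ R, ∀ r' ∈ R, lev w r'.1 < lev w r.1 → M * mono x r'.1 ≤ mono x r.1) →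
      (∃ r ∈ R, lev w r.2 ≠ lev w r.1) → ∑ i, w i * field R k x i < 0 := by
  classical
  have hev : ∀ᶠ M : ℝ in atTop, ∀ r ∈ R, ∀ r' ∈ R, lev w r'.2 < lev w r'.1 →
      ((R.card : ℝ) + 1) * (k r * (lev w r.2 - lev w r.1)) ≤
        M * (k r' * (lev w r'.1 - lev w r'.2)) := by
    rw [eventually_all_finset]
    intro r hr
    rw [eventually_all_finset]
    intro r' hr'
    by_cases h : lev w r'.2 < lev w r'.1
    · have hpos : 0 < k r' * (lev w r'.1 - lev w r'.2) := mul_pos (hk r' hr') (by linarith)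
      filter_upwards [(tendsto_id.atTop_mul_const hpos).eventually_ge_atTop
        (((R.card : ℝ) + 1) * (k r * (lev w r.2 - lev w r.1)))] with M hM _
      exact hM
    · exact Eventually.of_forall fun M h' => absurd h' h
  filter_upwards [hev] with M hM x hx hval hne
  have hmono : ∀ y, 0 < mono x y := fun y => Finset.prod_pos fun i _ => pow_pos (hx i) _
  rw [dot_field]
  set F : (Fin d → ℕ) × (Fin d → ℕ) → ℝ := fun r => k r * mono x r.1 * (lev w r.2 - lev w r.1)
    with hF
  set D : ℝ := ∑ r ∈ R, max (-F r) 0 with hD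
  have hdown : ∀ r ∈ R, lev w r.1 < lev w r.2 →
      ∃ r' ∈ R, lev w r.1 < lev w r'.1 ∧ lev w r'.2 ≤ lev w r.1 :=
    fun r hr h => exists_down_edge R w _ _ _ (hR r hr) h le_rfl
  have hle : ∀ r' ∈ R, -F r' ≤ D := fun r' hr' =>
    (le_max_left _ _).trans (Finset.single_le_sum (f := fun r => max (-F r) 0)
      (fun r _ => le_max_right _ _) hr')
  have hD0 : 0 < D := by
    obtain ⟨r, hr, hne⟩ := hne
    have : ∃ r' ∈ R, lev w r'.2 < lev w r'.1 := by
      rcases lt_or_gt_of_ne hne with h | h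
      · exact ⟨r, hr, h⟩
      · obtain ⟨r', hr', h1, h2⟩ := hdown r hr h
        exact ⟨r', hr', by linarith⟩
    obtain ⟨r', hr', h⟩ := this
    refine lt_of_lt_of_le ?_ (hle r' hr')
    have := mul_pos (mul_pos (hk r' hr') (hmono r'.1)) (sub_pos.2 h)
    simp only [hF]; nlinarith
  have hup : ∀ r ∈ R, ((R.card : ℝ) + 1) * max (F r) 0 ≤ D := by
    intro r hr
    by_cases h : lev w r.1 < lev w r.2
    · obtain ⟨r', hr', h1, h2⟩ := hdown r hr h
      have h3 := hM r hr r' hr' (by linarith)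
      have h4 := hval r' hr' r hr h1
      have h5 : 0 ≤ F r := (mul_pos (mul_pos (hk r hr) (hmono r.1)) (sub_pos.2 h)).le
      rw [max_eq_left h5]
      refine le_trans ?_ (hle r' hr')
      have h6 : 0 < k r' * (lev w r'.1 - lev w r'.2) := mul_pos (hk r' hr') (by linarith)
      calc ((R.card : ℝ) + 1) * F r
          = mono x r.1 * (((R.card : ℝ) + 1) * (k r * (lev w r.2 - lev w r.1))) := by
            simp only [hF]; ring
        _ ≤ mono x r.1 * (M * (k r' * (lev w r'.1 - lev w r'.2))) :=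
            mul_le_mul_of_nonneg_left h3 (hmono _).le
        _ = (M * mono x r.1) * (k r' * (lev w r'.1 - lev w r'.2)) := by ring
        _ ≤ mono x r'.1 * (k r' * (lev w r'.1 - lev w r'.2)) :=
            mul_le_mul_of_nonneg_right h4 h6.le
        _ = -F r' := by simp only [hF]; ring
    · have h5 : F r ≤ 0 := mul_nonpos_of_nonneg_of_nonpos
        (mul_pos (hk r hr) (hmono r.1)).le (by linarith)
      rw [max_eq_right h5, mul_zero]; exact hD0.le
  have hsplit : ∑ r ∈ R, F r = ∑ r ∈ R, max (F r) 0 - D := by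
    rw [hD, ← Finset.sum_sub_distrib]
    refine Finset.sum_congr rfl fun r _ => ?_
    rcases le_total (F r) 0 with h | h
    · rw [max_eq_right h, max_eq_left (by linarith)]; ring
    · rw [max_eq_left h, max_eq_right (by linarith)]; ring
  have hsum : ((R.card : ℝ) + 1) * ∑ r ∈ R, max (F r) 0 ≤ R.card * D := by
    rw [Finset.mul_sum]
    have := Finset.sum_le_card_nsmul R _ D hup
    simpa using this
  change ∑ r ∈ R, F r < 0
  rw [hsplit]
  have hc : (0 : ℝ) < (R.card : ℝ) + 1 := by positivity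
  nlinarith

end Crest.Agent.CRN
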